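import Vale.Agent.P141.Defs

/-!
# P141, module BUMP

`bmp` is a smooth bump: `0 ≤ bmp ≤ 1`, `bmp u = 1` for `|u| ≤ 1/4`, `bmp u = 0` for `|u| ≥ 1/2`
(`ContDiffBump (0 : ℝ)` with radii `1/4`, `1/2`).
`big s f u = ∑ y ∈ s, f y * bmp (u - y)` as a Schwartz function (compactly supported smooth:
`HasCompactSupport.toSchwartzMap` or build from sums of translates).
`bump_norm`: for each `u` at most one term is nonzero, so
`∫ |F|^p ≤ ∑ f y^p` (the supports `(y - 1/2, y + 1/2)` are disjoint, each has length `1`).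
`bump_tht`: if every `t` with nonzero integrand lies in `[δ, R₀]`, then `Ttrunc ε R` is constant for
`ε < δ`, `R > R₀`, so `THT` is the full integral (`Tendsto.limUnder_eq`, eventually constant).
`bump_lower`: for `|x - x₀| ≤ 1/16` and `|t - t₀| ≤ 1/16`: `|x - i t - (x₀ - i t₀)| ≤ 1/4`, so the
integrand is at least `f₁ f₂ f₃ / (4K + 1)`; the intervals `|t - t₀| ≤ 1/16` are disjoint and the
integrand is nonnegative for `t > 0` and zero for `t ≤ 0`.
-/

open MeasureTheory Filter Topology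
open scoped SchwartzMap ENNReal ContDiff

namespace Vale.Agent.P141

/-- the bump -/
noncomputable def bmp : ℝ → ℝ :=
  (⟨1 / 4, 1 / 2, by norm_num, by norm_num⟩ : ContDiffBump (0 : ℝ))

/-- sum of bumps, complex valued -/
noncomputable def big (s : Finset ℤ) (f : ℤ → ℝ) (u : ℝ) : ℂ :=
  ((∑ y ∈ s, f y * bmp (u - y) : ℝ) : ℂ)

private theorem schw_smooth (s : Finset ℤ) (f : ℤ → ℝ) : ContDiff ℝ ∞ (big s f) := by
  have hb : ContDiff ℝ ∞ bmp := by
    unfold bmp
    exact ContDiffBump.contDiff _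
  have h1 : ContDiff ℝ ∞ (fun u : ℝ => ∑ y ∈ s, f y * bmp (u - y)) :=
    ContDiff.sum fun y _ => contDiff_const.mul (hb.comp (contDiff_id.sub contDiff_const))
  exact Complex.ofRealCLM.contDiff.comp h1

private theorem schw_compact (s : Finset ℤ) (f : ℤ → ℝ) : HasCompactSupport (big s f) := by
  refine HasCompactSupport.intro (K := ⋃ y ∈ s, Metric.closedBall (y : ℝ) (1 / 2)) ?_ ?_
  · exact s.isCompact_biUnion fun y _ => isCompact_closedBall _ _
  · intro u hu
    unfold big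
    rw [Finset.sum_eq_zero]
    · simp
    · intro y hy
      have h1 : 1 / 2 ≤ |u - y| := by
        by_contra hc
        refine hu (Set.mem_biUnion hy ?_)
        rw [Metric.mem_closedBall, Real.dist_eq]
        exact (not_le.1 hc).le
      have h2 : bmp (u - y) = 0 := by
        unfold bmp
        apply ContDiffBump.zero_of_le_dist
        rw [Real.dist_eq, sub_zero]
        exact h1
      rw [h2, mul_zero]

theorem bump_schwartz (s : Finset ℤ) (f : ℤ → ℝ) : ∃ F : 𝓢(ℝ, ℂ), ∀ u, F u = big s f u :=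
  ⟨(schw_compact s f).toSchwartzMap (schw_smooth s f), fun _ => rfl⟩

private theorem norm_bmp_nonneg (u : ℝ) : 0 ≤ bmp u := by
  unfold bmp
  exact ContDiffBump.nonneg _

private theorem norm_bmp_le_one (u : ℝ) : bmp u ≤ 1 := by
  unfold bmp
  exact ContDiffBump.le_one _

private theorem norm_bmp_zero {u : ℝ} (h : 1 / 2 ≤ |u|) : bmp u = 0 := by
  unfold bmp
  apply ContDiffBump.zero_of_le_dist
  rw [Real.dist_eq, sub_zero]
  exact h

private theorem norm_pointwise (s : Finset ℤ) (f : ℤ → ℝ) (hf : ∀ y, 0 ≤ f y) {p : ℝ}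
    (hp : 0 < p) (u : ℝ) : ‖big s f u‖ₑ ^ p ≤ ∑ y ∈ s,
      (Set.Ioo ((y : ℝ) - 1 / 2) (y + 1 / 2)).indicator (fun _ => ENNReal.ofReal (f y ^ p)) u := by
  by_cases hex : ∃ y ∈ s, bmp (u - y) ≠ 0
  · obtain ⟨y, hy, hne⟩ := hex
    have hlt : ∀ z : ℤ, bmp (u - z) ≠ 0 → |u - z| < 1 / 2 := by
      intro z hz
      by_contra hc
      exact hz (norm_bmp_zero (not_lt.1 hc))
    have hyl := hlt y hne
    have hsum : ∑ z ∈ s, f z * bmp (u - z) = f y * bmp (u - y) := by
      apply Finset.sum_eq_single_of_mem y hy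
      intro z _ hzy
      by_contra hc
      have hz : bmp (u - z) ≠ 0 := fun h0 => hc (by rw [h0, mul_zero])
      have hzl := hlt z hz
      rw [abs_lt] at hyl hzl
      have h1 : ((z - y : ℤ) : ℝ) < 1 := by push_cast; linarith
      have h2 : (-1 : ℝ) < ((z - y : ℤ) : ℝ) := by push_cast; linarith
      have h3 : z - y < 1 := by exact_mod_cast h1
      have h4 : -1 < z - y := by exact_mod_cast h2
      apply hzy
      omega
    have hbig : ‖big s f u‖ₑ = ENNReal.ofReal (f y * bmp (u - y)) := by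
      unfold big
      rw [hsum, ← ofReal_norm, Complex.norm_real, Real.norm_eq_abs, abs_of_nonneg]
      exact mul_nonneg (hf y) (norm_bmp_nonneg _)
    rw [hbig, ENNReal.ofReal_rpow_of_nonneg (mul_nonneg (hf y) (norm_bmp_nonneg _)) hp.le]
    have hterm : ENNReal.ofReal ((f y * bmp (u - y)) ^ p)
        ≤ (Set.Ioo ((y : ℝ) - 1 / 2) (y + 1 / 2)).indicator
          (fun _ => ENNReal.ofReal (f y ^ p)) u := by
      rw [Set.indicator_of_mem]
      · apply ENNReal.ofReal_le_ofReal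
        apply Real.rpow_le_rpow (mul_nonneg (hf y) (norm_bmp_nonneg _)) _ hp.le
        exact mul_le_of_le_one_right (hf y) (norm_bmp_le_one _)
      · rw [abs_lt] at hyl
        constructor <;> linarith [hyl.1, hyl.2]
    exact hterm.trans (Finset.single_le_sum (f := fun z : ℤ =>
      (Set.Ioo ((z : ℝ) - 1 / 2) (z + 1 / 2)).indicator (fun _ => ENNReal.ofReal (f z ^ p)) u)
      (fun _ _ => zero_le) hy)
  · push Not at hex
    have h0 : big s f u = 0 := by
      unfold big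
      rw [Finset.sum_eq_zero]
      · simp
      · intro y hy
        rw [hex y hy, mul_zero]
    rw [h0, enorm_zero, ENNReal.zero_rpow_of_pos hp]
    exact zero_le

theorem bump_norm (s : Finset ℤ) (f : ℤ → ℝ) (hf : ∀ y, 0 ≤ f y) {p : ℝ} (hp : 0 < p)
    (hm : ∑ y ∈ s, f y ^ p ≤ 1) : eLpNorm (big s f) (ENNReal.ofReal p) volume ≤ 1 := by
  have hp0 : ENNReal.ofReal p ≠ 0 := by
    rw [Ne, ENNReal.ofReal_eq_zero]
    exact not_le.2 hp
  rw [eLpNorm_eq_lintegral_rpow_enorm_toReal hp0 ENNReal.ofReal_ne_top, ENNReal.toReal_ofReal hp.le]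
  have hle : ∫⁻ u, ‖big s f u‖ₑ ^ p ≤ 1 := by
    calc ∫⁻ u, ‖big s f u‖ₑ ^ p ≤ ∫⁻ u, ∑ y ∈ s,
          (Set.Ioo ((y : ℝ) - 1 / 2) (y + 1 / 2)).indicator
            (fun _ => ENNReal.ofReal (f y ^ p)) u :=
          lintegral_mono (norm_pointwise s f hf hp)
      _ = ∑ y ∈ s, ∫⁻ u, (Set.Ioo ((y : ℝ) - 1 / 2) (y + 1 / 2)).indicator
            (fun _ => ENNReal.ofReal (f y ^ p)) u := by
          rw [lintegral_finsetSum]
          intro y _
          exact measurable_const.indicator measurableSet_Ioo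
      _ = ∑ y ∈ s, ENNReal.ofReal (f y ^ p) := by
          refine Finset.sum_congr rfl fun y _ => ?_
          rw [lintegral_indicator_const measurableSet_Ioo, Real.volume_Ioo]
          have : (y : ℝ) + 1 / 2 - (y - 1 / 2) = 1 := by ring
          rw [this, ENNReal.ofReal_one, mul_one]
      _ = ENNReal.ofReal (∑ y ∈ s, f y ^ p) := by
          rw [ENNReal.ofReal_sum_of_nonneg]
          intro y _
          exact Real.rpow_nonneg (hf y) p
      _ ≤ 1 := by
          rw [← ENNReal.ofReal_one]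
          exact ENNReal.ofReal_le_ofReal hm
  exact ENNReal.rpow_le_one hle (by positivity)

private theorem lower_bmp_nonneg (u : ℝ) : 0 ≤ bmp u :=
  ContDiffBump.nonneg (⟨1 / 4, 1 / 2, by norm_num, by norm_num⟩ : ContDiffBump (0 : ℝ))

private theorem lower_bmp_one {u : ℝ} (h : |u| ≤ 1 / 4) : bmp u = 1 := by
  refine ContDiffBump.one_of_mem_closedBall
    (⟨1 / 4, 1 / 2, by norm_num, by norm_num⟩ : ContDiffBump (0 : ℝ)) ?_
  rw [Metric.mem_closedBall, Real.dist_eq, sub_zero]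
  exact h

private theorem lower_bmp_zero {u : ℝ} (h : 1 / 2 ≤ |u|) : bmp u = 0 := by
  refine ContDiffBump.zero_of_le_dist
    (⟨1 / 4, 1 / 2, by norm_num, by norm_num⟩ : ContDiffBump (0 : ℝ)) ?_
  rw [Real.dist_eq, sub_zero]
  exact h

private theorem lower_bmp_cont : Continuous bmp :=
  ContDiffBump.continuous (⟨1 / 4, 1 / 2, by norm_num, by norm_num⟩ : ContDiffBump (0 : ℝ))

/-- real version of `big` -/
private noncomputable def lower_g (s : Finset ℤ) (f : ℤ → ℝ) (u : ℝ) : ℝ :=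
  ∑ y ∈ s, f y * bmp (u - y)

private theorem lower_g_nonneg {s : Finset ℤ} {f : ℤ → ℝ} (hf : ∀ y, 0 ≤ f y) (u : ℝ) :
    0 ≤ lower_g s f u :=
  Finset.sum_nonneg fun y _ => mul_nonneg (hf y) (lower_bmp_nonneg _)

private theorem lower_g_ge {s : Finset ℤ} {f : ℤ → ℝ} (hf : ∀ y, 0 ≤ f y)
    (hz : ∀ y, y ∉ s → f y = 0) {u : ℝ} {y : ℤ} (hy : |u - y| ≤ 1 / 4) :
    f y ≤ lower_g s f u := by
  by_cases h : y ∈ s
  · have h1 := Finset.single_le_sum (f := fun y : ℤ => f y * bmp (u - y))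
      (fun z _ => mul_nonneg (hf z) (lower_bmp_nonneg _)) h
    rw [lower_bmp_one hy, mul_one] at h1
    exact h1
  · rw [hz y h]
    exact lower_g_nonneg hf u

private theorem lower_g_cont (s : Finset ℤ) (f : ℤ → ℝ) : Continuous (lower_g s f) := by
  unfold lower_g
  exact continuous_finsetSum _ fun y _ =>
    continuous_const.mul (lower_bmp_cont.comp (continuous_id.sub continuous_const))

private theorem lower_g_zero {s : Finset ℤ} {f : ℤ → ℝ} {u : ℝ}
    (h : ∀ y ∈ s, 1 / 2 ≤ |u - y|) : lower_g s f u = 0 :=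
  Finset.sum_eq_zero fun y hy => by rw [lower_bmp_zero (h y hy), mul_zero]

/-- lower bound: `s₁` lies in `[-4K, -2K]`, `x₀ ∈ [-K, K]`, `T ⊆ [1, 4K]` -/
theorem bump_lower {K : ℤ} (hK : 1 ≤ K) (s₁ s₂ s₃ T : Finset ℤ) (f₁ f₂ f₃ : ℤ → ℝ)
    (h1 : ∀ y, 0 ≤ f₁ y) (h2 : ∀ y, 0 ≤ f₂ y) (h3 : ∀ y, 0 ≤ f₃ y)
    (z1 : ∀ y, y ∉ s₁ → f₁ y = 0) (z2 : ∀ y, y ∉ s₂ → f₂ y = 0) (z3 : ∀ y, y ∉ s₃ → f₃ y = 0)
    (hs : ∀ y ∈ s₁, -(4 * K) ≤ y ∧ y ≤ -(2 * K)) (hT : ∀ t ∈ T, 1 ≤ t ∧ t ≤ 4 * K)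
    {x₀ : ℤ} (hx₀ : |x₀| ≤ K) {x : ℝ} (hx : |x - x₀| ≤ 1 / 16) :
    SS T f₁ f₂ f₃ x₀ / (40 * K) ≤ ‖THT (big s₁ f₁) (big s₂ f₂) (big s₃ f₃) x‖ := by
  have hK' : (1 : ℝ) ≤ K := by exact_mod_cast hK
  have hx0' : |(x₀ : ℝ)| ≤ K := by exact_mod_cast hx₀
  have hx1 := abs_le.1 hx
  have hx2 := abs_le.1 hx0'
  obtain ⟨G, hG⟩ : ∃ G : ℝ → ℝ, G = fun t => lower_g s₁ f₁ (x - t) * lower_g s₂ f₂ (x - 2 * t) *
    lower_g s₃ f₃ (x - 3 * t) / t := ⟨_, rfl⟩
  obtain ⟨a, ha⟩ : ∃ a : ℝ, a = 7 / 16 := ⟨_, rfl⟩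
  obtain ⟨b, hb⟩ : ∃ b : ℝ, b = 5 * K + 9 / 16 := ⟨_, rfl⟩
  -- support
  have hsupp : ∀ t, t ∉ Set.Icc a b → G t = 0 := by
    intro t ht
    have h0 : lower_g s₁ f₁ (x - t) = 0 := by
      refine lower_g_zero fun y hy => ?_
      obtain ⟨e1, e2⟩ := hs y hy
      have e1' : -(4 * (K : ℝ)) ≤ y := by exact_mod_cast e1
      have e2' : (y : ℝ) ≤ -(2 * K) := by exact_mod_cast e2
      by_contra hcon
      push Not at hcon
      have e3 := abs_lt.1 hcon
      apply ht
      constructor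
      · rw [ha]
        linarith
      · rw [hb]
        linarith
    rw [hG]
    simp only [h0, zero_mul, zero_div]
  have ha0 : 0 < a := by rw [ha]; norm_num
  have hnn : ∀ t, 0 ≤ G t := by
    intro t
    by_cases ht : t ∈ Set.Icc a b
    · have ht0 : 0 < t := lt_of_lt_of_le ha0 ht.1
      rw [hG]
      have e1 := lower_g_nonneg (s := s₁) h1 (x - t)
      have e2 := lower_g_nonneg (s := s₂) h2 (x - 2 * t)
      have e3 := lower_g_nonneg (s := s₃) h3 (x - 3 * t)
      positivity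
    · rw [hsupp t ht]
  have hcont : ContinuousOn G (Set.Icc a b) := by
    rw [hG]
    refine ContinuousOn.div ?_ continuousOn_id (fun t ht => (lt_of_lt_of_le ha0 ht.1).ne')
    refine Continuous.continuousOn ?_
    exact (((lower_g_cont s₁ f₁).comp (by fun_prop)).mul
      ((lower_g_cont s₂ f₂).comp (by fun_prop))).mul ((lower_g_cont s₃ f₃).comp (by fun_prop))
  have hint : Integrable G := by
    refine (integrableOn_iff_integrable_of_support_subset (s := Set.Icc a b) ?_).1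
      hcont.integrableOn_Icc
    intro t ht
    by_contra hcon
    exact ht (hsupp t hcon)
  -- the limit
  have htr : ∀ ε R : ℝ, ε < a → b < R →
      Ttrunc ε R (big s₁ f₁) (big s₂ f₂) (big s₃ f₃) x = ((∫ t, G t : ℝ) : ℂ) := by
    intro ε R hε hR
    unfold Ttrunc
    have e1 : ∀ t : ℝ, big s₁ f₁ (x - t) * big s₂ f₂ (x - 2 * t) * big s₃ f₃ (x - 3 * t) / (t : ℂ) =
        ((G t : ℝ) : ℂ) := by
      intro t
      rw [hG]
      unfold big lower_g
      push_cast
      rfl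
    simp only [e1]
    rw [setIntegral_eq_integral_of_forall_compl_eq_zero, integral_complex_ofReal]
    intro t ht
    rw [hsupp t, Complex.ofReal_zero]
    intro ht'
    apply ht
    have ht0 : 0 < t := lt_of_lt_of_le ha0 ht'.1
    show ε < |t| ∧ |t| < R
    rw [abs_of_pos ht0]
    exact ⟨lt_of_lt_of_le hε ht'.1, lt_of_le_of_lt ht'.2 hR⟩
  have hlim : THT (big s₁ f₁) (big s₂ f₂) (big s₃ f₃) x = ((∫ t, G t : ℝ) : ℂ) := by
    unfold THT
    refine Tendsto.limUnder_eq ?_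
    refine Tendsto.congr' ?_ tendsto_const_nhds
    have e1 : ∀ᶠ ε in 𝓝[>] (0 : ℝ), ε < a := by
      refine nhdsWithin_le_nhds ?_
      exact Iio_mem_nhds ha0
    have e2 : ∀ᶠ R in (atTop : Filter ℝ), b < R := eventually_gt_atTop b
    filter_upwards [e1.prod_mk e2] with q hq
    exact (htr q.1 q.2 hq.1 hq.2).symm
  rw [hlim, Complex.norm_real, Real.norm_eq_abs]
  refine le_trans ?_ (le_abs_self _)
  -- lower bound of the integral
  have hU : ∫ t in ⋃ t₀ ∈ T, Set.Icc ((t₀ : ℝ) - 1 / 16) (t₀ + 1 / 16), G t ≤ ∫ t, G t :=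
    setIntegral_le_integral hint (Filter.Eventually.of_forall hnn)
  refine le_trans ?_ hU
  rw [integral_biUnion_finset T (fun _ _ => measurableSet_Icc) ?_ (fun _ _ => hint.integrableOn)]
  · unfold SS
    rw [Finset.sum_div]
    refine Finset.sum_le_sum fun t₀ ht₀ => ?_
    obtain ⟨b1, b2⟩ := hT t₀ ht₀
    have b1' : (1 : ℝ) ≤ t₀ := by exact_mod_cast b1
    have b2' : (t₀ : ℝ) ≤ 4 * K := by exact_mod_cast b2
    obtain ⟨c, hc⟩ : ∃ c : ℝ, c = f₁ (x₀ - t₀) * f₂ (x₀ - 2 * t₀) * f₃ (x₀ - 3 * t₀) := ⟨_, rfl⟩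
    rw [← hc]
    have hc0 : 0 ≤ c := by
      rw [hc]
      exact mul_nonneg (mul_nonneg (h1 _) (h2 _)) (h3 _)
    have hlow : ∀ t ∈ Set.Icc ((t₀ : ℝ) - 1 / 16) (t₀ + 1 / 16), c / (5 * K) ≤ G t := by
      intro t ht
      have ht1 := ht.1
      have ht2 := ht.2
      have ht0 : 0 < t := by linarith
      have g1 : f₁ (x₀ - t₀) ≤ lower_g s₁ f₁ (x - t) := by
        refine lower_g_ge h1 z1 ?_
        push_cast
        rw [abs_le]
        constructor <;> linarith
      have g2 : f₂ (x₀ - 2 * t₀) ≤ lower_g s₂ f₂ (x - 2 * t) := by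
        refine lower_g_ge h2 z2 ?_
        push_cast
        rw [abs_le]
        constructor <;> linarith
      have g3 : f₃ (x₀ - 3 * t₀) ≤ lower_g s₃ f₃ (x - 3 * t) := by
        refine lower_g_ge h3 z3 ?_
        push_cast
        rw [abs_le]
        constructor <;> linarith
      rw [hG, hc]
      have g4 : f₁ (x₀ - t₀) * f₂ (x₀ - 2 * t₀) * f₃ (x₀ - 3 * t₀) ≤
          lower_g s₁ f₁ (x - t) * lower_g s₂ f₂ (x - 2 * t) * lower_g s₃ f₃ (x - 3 * t) :=
        mul_le_mul (mul_le_mul g1 g2 (h2 _) (lower_g_nonneg h1 _)) g3 (h3 _)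
          (mul_nonneg (lower_g_nonneg h1 _) (lower_g_nonneg h2 _))
      refine div_le_div₀ ((mul_nonneg (mul_nonneg (h1 _) (h2 _)) (h3 _)).trans g4) g4 ht0 ?_
      linarith
    have hI : c / (5 * K) * (1 / 8) ≤
        ∫ t in Set.Icc ((t₀ : ℝ) - 1 / 16) (t₀ + 1 / 16), G t := by
      have e1 : ∫ _t in Set.Icc ((t₀ : ℝ) - 1 / 16) (t₀ + 1 / 16), c / (5 * K) =
          c / (5 * K) * (1 / 8) := by
        rw [setIntegral_const, smul_eq_mul, Measure.real, Real.volume_Icc,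
          ENNReal.toReal_ofReal (by linarith)]
        ring
      rw [← e1]
      refine setIntegral_mono_on ?_ hint.integrableOn measurableSet_Icc hlow
      exact integrableOn_const (by rw [Real.volume_Icc]; exact ENNReal.ofReal_ne_top)
    refine le_trans (le_of_eq ?_) hI
    field_simp
    ring
  · intro t ht t' ht' hne
    rw [Function.onFun, Set.disjoint_left]
    intro z hz hz'
    apply hne
    have e1 := hz.1
    have e2 := hz.2
    have e3 := hz'.1
    have e4 := hz'.2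
    have e5 : |((t - t' : ℤ) : ℝ)| < 1 := by
      push_cast
      rw [abs_lt]
      constructor <;> linarith
    have e6 : |t - t'| < 1 := by exact_mod_cast e5
    have e7 := Int.abs_lt_one_iff.1 e6
    omega

end Vale.Agent.P141
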