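import Vale.Agent.P141.Statement

/-!
# P141: working definitions

`SS` (discrete single scale sum), `Adm` (normalized nonnegative finitely supported
function on `ℤ`), `Lvl` (a configuration at scale `N`).
-/

open MeasureTheory Filter Topology
open scoped SchwartzMap ENNReal

namespace Vale.Agent.P141

/-- discrete sum over the set `T` of differences -/
noncomputable def SS (T : Finset ℤ) (f₁ f₂ f₃ : ℤ → ℝ) (x : ℤ) : ℝ :=
  ∑ t ∈ T, f₁ (x - t) * f₂ (x - 2 * t) * f₃ (x - 3 * t)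

/-- nonnegative, supported in `[-K, K]`, `ℓ^p` norm at most one -/
structure Adm (p : ℝ) (K : ℤ) (f : ℤ → ℝ) : Prop where
  nonneg : ∀ y, 0 ≤ f y
  supp : ∀ y, K < |y| → f y = 0
  mass : ∑ y ∈ Finset.Icc (-K) K, f y ^ p ≤ 1

/-- a configuration with `N` points, size `K` and gain `W` -/
def Lvl (p₁ p₂ p₃ r : ℝ) (N K : ℤ) (W : ℝ) : Prop :=
  ∃ (T : Finset ℤ) (f₁ f₂ f₃ : ℤ → ℝ), Adm p₁ K f₁ ∧ Adm p₂ K f₂ ∧ Adm p₃ K f₃ ∧
    (∀ t ∈ T, |t| ≤ K) ∧ W ≤ ∑ x ∈ Finset.Ico 0 N, (SS T f₁ f₂ f₃ x) ^ r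

/-- sum of the weights of the pairs `p ∈ G` with `g p = v` -/
noncomputable def cnt (G : Finset (ℤ × ℤ)) (w : ℤ × ℤ → ℝ) (g : ℤ × ℤ → ℤ) (v : ℤ) : ℝ :=
  ∑ p ∈ G with g p = v, w p

/-- `∑_v cnt v log (cnt v)` -/
noncomputable def EE (G : Finset (ℤ × ℤ)) (w : ℤ × ℤ → ℝ) (g : ℤ × ℤ → ℤ) : ℝ :=
  ∑ p ∈ G, w p * Real.log (cnt G w g (g p))

/-- the three linear forms -/
def lin (i : ℕ) (p : ℤ × ℤ) : ℤ := p.1 - i * p.2

end Vale.Agent.P141
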