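import Vale.Agent.P141.Defs

/-!
# P141, module ENTROPY

`gibbs`: `∑ w log (b/w) ≤ (∑ w) log ((∑ b)/(∑ w))` (sum `w (log x) ≤ w (x - 1)` with
`x = b (∑ w) / (w (∑ b))`).
`entropy_gain`: `φ_i v = (cnt_i v / M)^(1/p_i)`, `D = G.image Prod.snd`, `b_p = φ₁ φ₂ φ₃` at `p`,
`A_d = ∑_{p.1 = d} b_p ≤ SS D φ d`, `N_d = cnt fst d`.  Gibbs for each `d`:
`∑_{p.1=d} w_p log (b_p/w_p) ≤ N_d log (A_d/N_d)`; Gibbs over `d`:
`∑_d N_d log (A_d^r/N_d) ≤ M log (W/M)`, `W = ∑_d A_d^r`.  Together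
`M log W ≥ M log M + r ∑_p w_p log b_p - r E_xt + r E_x - E_x
 = r (∑_i (E_i - E_x)/p_i - E_xt + E_x) > r M log B`  (use `r (1/p₁+1/p₂+1/p₃) = 1`).
-/

namespace Vale.Agent.P141

theorem gibbs {α : Type} (s : Finset α) (w b : α → ℝ) (hs : s.Nonempty) (hw : ∀ a ∈ s, 0 < w a)
    (hb : ∀ a ∈ s, 0 < b a) :
    ∑ a ∈ s, w a * Real.log (b a / w a) ≤
      (∑ a ∈ s, w a) * Real.log ((∑ a ∈ s, b a) / (∑ a ∈ s, w a)) := by
  have hW : 0 < ∑ a ∈ s, w a := Finset.sum_pos hw hs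
  have hB : 0 < ∑ a ∈ s, b a := Finset.sum_pos hb hs
  set W := ∑ a ∈ s, w a with hWd
  set Bs := ∑ a ∈ s, b a with hBd
  have h1 : ∀ a ∈ s, w a * Real.log (b a / w a) ≤
      w a * Real.log (Bs / W) + (b a * (W / Bs) - w a) := by
    intro a ha
    have hwa := hw a ha
    have hba := hb a ha
    have h2 : Real.log (b a / w a) = Real.log (Bs / W) + Real.log (b a * W / (w a * Bs)) := by
      rw [← Real.log_mul (by positivity) (by positivity)]
      congr 1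
      field_simp
    have h3 : Real.log (b a * W / (w a * Bs)) ≤ b a * W / (w a * Bs) - 1 :=
      Real.log_le_sub_one_of_pos (by positivity)
    have h4 : w a * (b a * W / (w a * Bs) - 1) = b a * (W / Bs) - w a := by
      field_simp
    rw [h2, mul_add, ← h4]
    have := mul_le_mul_of_nonneg_left h3 hwa.le
    linarith
  calc ∑ a ∈ s, w a * Real.log (b a / w a)
      ≤ ∑ a ∈ s, (w a * Real.log (Bs / W) + (b a * (W / Bs) - w a)) := Finset.sum_le_sum h1
    _ = W * Real.log (Bs / W) + (Bs * (W / Bs) - W) := by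
        rw [Finset.sum_add_distrib, Finset.sum_sub_distrib, ← Finset.sum_mul, ← Finset.sum_mul]
    _ = W * Real.log (Bs / W) := by
        rw [mul_div_cancel₀ W hB.ne']; ring

/-- the extremal functions of the configuration -/
noncomputable def phiG (G : Finset (ℤ × ℤ)) (w : ℤ × ℤ → ℝ) (i : ℕ) (p : ℝ) (v : ℤ) : ℝ :=
  (cnt G w (lin i) v / ∑ q ∈ G, w q) ^ (1 / p)

theorem phiG_adm (G : Finset (ℤ × ℤ)) (w : ℤ × ℤ → ℝ) (hG : G.Nonempty) (hw : ∀ q ∈ G, 0 < w q)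
    (i : ℕ) {p : ℝ} (hp : 0 < p) {k : ℤ} (hk : ∀ q ∈ G, |lin i q| ≤ k) :
    Adm p k (phiG G w i p) := by
  have hM : 0 < ∑ q ∈ G, w q := Finset.sum_pos hw hG
  have hc0 : ∀ v, 0 ≤ cnt G w (lin i) v := fun v =>
    Finset.sum_nonneg fun q hq => (hw q (Finset.mem_filter.1 hq).1).le
  have hd0 : ∀ v, 0 ≤ cnt G w (lin i) v / ∑ q ∈ G, w q := fun v => div_nonneg (hc0 v) hM.le
  refine ⟨fun v => Real.rpow_nonneg (hd0 v) _, fun v hv => ?_, ?_⟩
  · unfold phiG
    have h0 : cnt G w (lin i) v = 0 := by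
      unfold cnt
      rw [Finset.filter_false_of_mem, Finset.sum_empty]
      intro q hq h
      have := hk q hq
      rw [h] at this
      omega
    rw [h0, zero_div]
    exact Real.zero_rpow (one_div_ne_zero hp.ne')
  · have h1 : ∀ v, phiG G w i p v ^ p = cnt G w (lin i) v / ∑ q ∈ G, w q := by
      intro v
      unfold phiG
      rw [← Real.rpow_mul (hd0 v), one_div_mul_cancel hp.ne', Real.rpow_one]
    simp only [h1]
    rw [← Finset.sum_div, div_le_one hM]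
    have h2 : ∑ v ∈ Finset.Icc (-k) k, cnt G w (lin i) v = ∑ q ∈ G, w q := by
      unfold cnt
      exact Finset.sum_fiberwise_of_maps_to (fun q hq => by
        have := abs_le.1 (hk q hq)
        exact Finset.mem_Icc.2 this) w
    rw [h2]

theorem cnt_self_pos (G : Finset (ℤ × ℤ)) (w : ℤ × ℤ → ℝ) (hw : ∀ q ∈ G, 0 < w q)
    (g : ℤ × ℤ → ℤ) {q : ℤ × ℤ} (hq : q ∈ G) : 0 < cnt G w g (g q) := by
  unfold cnt
  exact Finset.sum_pos (fun a ha => hw a (Finset.mem_filter.1 ha).1)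
    ⟨q, Finset.mem_filter.2 ⟨hq, rfl⟩⟩

theorem gain_log_phi (G : Finset (ℤ × ℤ)) (w : ℤ × ℤ → ℝ) (hG : G.Nonempty)
    (hw : ∀ q ∈ G, 0 < w q) (i : ℕ) (p : ℝ) {q : ℤ × ℤ} (hq : q ∈ G) :
    0 < phiG G w i p (lin i q) ∧
      Real.log (phiG G w i p (lin i q)) =
        (Real.log (cnt G w (lin i) (lin i q)) - Real.log (∑ a ∈ G, w a)) / p := by
  have hM : 0 < ∑ q ∈ G, w q := Finset.sum_pos hw hG
  have hc := cnt_self_pos G w hw (lin i) hq
  have hd : 0 < cnt G w (lin i) (lin i q) / ∑ a ∈ G, w a := div_pos hc hM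
  constructor
  · unfold phiG
    exact Real.rpow_pos_of_pos hd _
  · unfold phiG
    rw [Real.log_rpow hd, Real.log_div hc.ne' hM.ne']
    ring

theorem gain_sum_le (G : Finset (ℤ × ℤ)) (f₁ f₂ f₃ : ℤ → ℝ) (h1 : ∀ v, 0 ≤ f₁ v)
    (h2 : ∀ v, 0 ≤ f₂ v) (h3 : ∀ v, 0 ≤ f₃ v) (x : ℤ) :
    ∑ q ∈ G with q.1 = x, f₁ (lin 1 q) * f₂ (lin 2 q) * f₃ (lin 3 q) ≤
      SS (G.image Prod.snd) f₁ f₂ f₃ x := by
  unfold SS
  have hinj : Set.InjOn (Prod.snd : ℤ × ℤ → ℤ) (G.filter fun q => q.1 = x) := by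
    intro a ha b hb hab
    have ha' := (Finset.mem_filter.1 (Finset.mem_coe.1 ha)).2
    have hb' := (Finset.mem_filter.1 (Finset.mem_coe.1 hb)).2
    exact Prod.ext (ha'.trans hb'.symm) hab
  have e1 : ∑ q ∈ G with q.1 = x, f₁ (lin 1 q) * f₂ (lin 2 q) * f₃ (lin 3 q)
      = ∑ t ∈ (G.filter fun q => q.1 = x).image Prod.snd,
          f₁ (x - t) * f₂ (x - 2 * t) * f₃ (x - 3 * t) := by
    rw [Finset.sum_image hinj]
    apply Finset.sum_congr rfl
    intro q hq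
    have hqx := (Finset.mem_filter.1 hq).2
    unfold lin
    rw [hqx]
    norm_num
  rw [e1]
  apply Finset.sum_le_sum_of_subset_of_nonneg
  · exact Finset.image_subset_image (Finset.filter_subset _ _)
  · intro t _ _
    exact mul_nonneg (mul_nonneg (h1 _) (h2 _)) (h3 _)

theorem entropy_gain (G : Finset (ℤ × ℤ)) (w : ℤ × ℤ → ℝ) (hG : G.Nonempty)
    (hw : ∀ q ∈ G, 0 < w q) {B : ℤ} (hB : 2 ≤ B) (hG1 : ∀ q ∈ G, 0 ≤ q.1 ∧ q.1 < B)
    {p₁ p₂ p₃ r : ℝ} (h1 : 1 < p₁) (h2 : 1 < p₂) (h3 : 1 < p₃) (hr : 0 < r)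
    (hH : 1 / r = 1 / p₁ + 1 / p₂ + 1 / p₃)
    (hgain : (∑ q ∈ G, w q) * Real.log B + ∑ q ∈ G, w q * Real.log (w q) - EE G w Prod.fst <
      (EE G w (lin 1) - EE G w Prod.fst) / p₁ + (EE G w (lin 2) - EE G w Prod.fst) / p₂ +
        (EE G w (lin 3) - EE G w Prod.fst) / p₃) :
    (B : ℝ) ^ r < ∑ x ∈ Finset.Ico 0 B, (SS (G.image Prod.snd) (phiG G w 1 p₁) (phiG G w 2 p₂)
      (phiG G w 3 p₃) x) ^ r := by
  have hM : 0 < ∑ q ∈ G, w q := Finset.sum_pos hw hG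
  have hphi0 : ∀ (i : ℕ) (p : ℝ) (v : ℤ), 0 ≤ phiG G w i p v := by
    intro i p v
    unfold phiG
    apply Real.rpow_nonneg
    apply div_nonneg _ hM.le
    exact Finset.sum_nonneg fun q hq => (hw q (Finset.mem_filter.1 hq).1).le
  -- the product weights
  obtain ⟨b, hbdef⟩ : ∃ b : ℤ × ℤ → ℝ, ∀ q, b q =
      phiG G w 1 p₁ (lin 1 q) * phiG G w 2 p₂ (lin 2 q) * phiG G w 3 p₃ (lin 3 q) :=
    ⟨_, fun q => rfl⟩
  have hbpos : ∀ q ∈ G, 0 < b q := by
    intro q hq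
    rw [hbdef]
    exact mul_pos (mul_pos (gain_log_phi G w hG hw 1 p₁ hq).1 (gain_log_phi G w hG hw 2 p₂ hq).1)
      (gain_log_phi G w hG hw 3 p₃ hq).1
  have hblog : ∀ q ∈ G, Real.log (b q) =
      (Real.log (cnt G w (lin 1) (lin 1 q)) - Real.log (∑ a ∈ G, w a)) / p₁ +
      (Real.log (cnt G w (lin 2) (lin 2 q)) - Real.log (∑ a ∈ G, w a)) / p₂ +
      (Real.log (cnt G w (lin 3) (lin 3 q)) - Real.log (∑ a ∈ G, w a)) / p₃ := by
    intro q hq
    have e1 := gain_log_phi G w hG hw 1 p₁ hq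
    have e2 := gain_log_phi G w hG hw 2 p₂ hq
    have e3 := gain_log_phi G w hG hw 3 p₃ hq
    rw [hbdef, Real.log_mul (mul_pos e1.1 e2.1).ne' e3.1.ne', Real.log_mul e1.1.ne' e2.1.ne',
      e1.2, e2.2, e3.2]
  -- the fibres
  obtain ⟨A, hAdef⟩ : ∃ A : ℤ → ℝ, ∀ x, A x = ∑ q ∈ G with q.1 = x, b q := ⟨_, fun x => rfl⟩
  have hne : ∀ x ∈ G.image Prod.fst, (G.filter fun q => q.1 = x).Nonempty := by
    intro x hx
    obtain ⟨q, hq, hqx⟩ := Finset.mem_image.1 hx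
    exact ⟨q, Finset.mem_filter.2 ⟨hq, hqx⟩⟩
  have hApos : ∀ x ∈ G.image Prod.fst, 0 < A x := by
    intro x hx
    rw [hAdef]
    exact Finset.sum_pos (fun a ha => hbpos a (Finset.mem_filter.1 ha).1) (hne x hx)
  have hNpos : ∀ x ∈ G.image Prod.fst, 0 < cnt G w Prod.fst x := by
    intro x hx
    unfold cnt
    exact Finset.sum_pos (fun a ha => hw a (Finset.mem_filter.1 ha).1) (hne x hx)
  have hXne : (G.image Prod.fst).Nonempty := hG.image _
  have hfib : ∀ f : ℤ × ℤ → ℝ, ∑ x ∈ G.image Prod.fst, ∑ q ∈ G with q.1 = x, f q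
      = ∑ q ∈ G, f q := fun f =>
    Finset.sum_fiberwise_of_maps_to (fun q hq => Finset.mem_image_of_mem _ hq) f
  have hNsum : ∑ x ∈ G.image Prod.fst, cnt G w Prod.fst x = ∑ q ∈ G, w q := hfib w
  -- first Gibbs
  have g1 : ∀ x ∈ G.image Prod.fst, ∑ q ∈ G with q.1 = x, w q * Real.log (b q / w q) ≤
      cnt G w Prod.fst x * Real.log (A x / cnt G w Prod.fst x) := by
    intro x hx
    have := gibbs (G.filter fun q => q.1 = x) w b (hne x hx)
      (fun a ha => hw a (Finset.mem_filter.1 ha).1) (fun a ha => hbpos a (Finset.mem_filter.1 ha).1)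
    rw [← hAdef] at this
    exact this
  -- second Gibbs
  have g2 := gibbs (G.image Prod.fst) (cnt G w Prod.fst) (fun x => A x ^ r) hXne hNpos
    (fun x hx => Real.rpow_pos_of_pos (hApos x hx) r)
  rw [hNsum] at g2
  have hWpos : 0 < ∑ x ∈ G.image Prod.fst, A x ^ r :=
    Finset.sum_pos (fun x hx => Real.rpow_pos_of_pos (hApos x hx) r) hXne
  have g3 : ∀ x ∈ G.image Prod.fst,
      r * (∑ q ∈ G with q.1 = x, w q * Real.log (b q / w q)) +
        (r - 1) * (∑ q ∈ G with q.1 = x, w q * Real.log (cnt G w Prod.fst q.1)) ≤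
      cnt G w Prod.fst x * Real.log (A x ^ r / cnt G w Prod.fst x) := by
    intro x hx
    have e1 : ∑ q ∈ G with q.1 = x, w q * Real.log (cnt G w Prod.fst q.1)
        = cnt G w Prod.fst x * Real.log (cnt G w Prod.fst x) := by
      rw [show cnt G w Prod.fst x * Real.log (cnt G w Prod.fst x) =
        (∑ q ∈ G with q.1 = x, w q) * Real.log (cnt G w Prod.fst x) from rfl, Finset.sum_mul]
      apply Finset.sum_congr rfl
      intro q hq
      rw [(Finset.mem_filter.1 hq).2]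
    have e2 := mul_le_mul_of_nonneg_left (g1 x hx) hr.le
    have hN := hNpos x hx
    have hA := hApos x hx
    rw [Real.log_div hA.ne' hN.ne'] at e2
    rw [Real.log_div (Real.rpow_pos_of_pos hA r).ne' hN.ne', Real.log_rpow hA, e1]
    nlinarith
  have g4 := Finset.sum_le_sum g3
  rw [Finset.sum_add_distrib, ← Finset.mul_sum, ← Finset.mul_sum, hfib, hfib] at g4
  have g5 := g4.trans g2
  rw [Real.log_div hWpos.ne' hM.ne'] at g5
  -- the sum of w log b
  have e1 : ∑ q ∈ G, w q * Real.log (b q / w q) =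
      (EE G w (lin 1) - (∑ q ∈ G, w q) * Real.log (∑ a ∈ G, w a)) / p₁ +
      (EE G w (lin 2) - (∑ q ∈ G, w q) * Real.log (∑ a ∈ G, w a)) / p₂ +
      (EE G w (lin 3) - (∑ q ∈ G, w q) * Real.log (∑ a ∈ G, w a)) / p₃ -
      ∑ q ∈ G, w q * Real.log (w q) := by
    unfold EE
    rw [Finset.sum_mul, ← Finset.sum_sub_distrib, ← Finset.sum_sub_distrib,
      ← Finset.sum_sub_distrib, Finset.sum_div, Finset.sum_div, Finset.sum_div,
      ← Finset.sum_add_distrib, ← Finset.sum_add_distrib, ← Finset.sum_sub_distrib]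
    apply Finset.sum_congr rfl
    intro q hq
    rw [Real.log_div (hbpos q hq).ne' (hw q hq).ne', hblog q hq]
    ring
  rw [e1] at g5
  change r * _ + (r - 1) * EE G w Prod.fst ≤ _ at g5
  -- algebra
  have hkey : (∑ q ∈ G, w q) * (r * Real.log B) <
      (∑ q ∈ G, w q) * Real.log (∑ x ∈ G.image Prod.fst, A x ^ r) := by
    have hr1 : r * (1 / p₁ + 1 / p₂ + 1 / p₃) = 1 := by
      rw [← hH, mul_one_div_cancel hr.ne']
    have h5 := mul_lt_mul_of_pos_left hgain hr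
    generalize EE G w (lin 1) = E1 at *
    generalize EE G w (lin 2) = E2 at *
    generalize EE G w (lin 3) = E3 at *
    generalize EE G w Prod.fst = Ex at *
    generalize (∑ q ∈ G, w q * Real.log (w q)) = Ew at *
    generalize (∑ q ∈ G, w q) = M at *
    generalize Real.log (∑ x ∈ G.image Prod.fst, A x ^ r) = LW at *
    generalize Real.log M = LM at *
    generalize Real.log (B : ℝ) = LB at *
    have h6 : r * ((E1 - M * LM) / p₁ + (E2 - M * LM) / p₂ + (E3 - M * LM) / p₃ - Ew)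
        = r * (E1 / p₁ + E2 / p₂ + E3 / p₃ - Ew) - M * LM * (r * (1 / p₁ + 1 / p₂ + 1 / p₃)) := by
      ring
    have h7 : r * ((E1 - Ex) / p₁ + (E2 - Ex) / p₂ + (E3 - Ex) / p₃)
        = r * (E1 / p₁ + E2 / p₂ + E3 / p₃) - Ex * (r * (1 / p₁ + 1 / p₂ + 1 / p₃)) := by
      ring
    rw [h6, hr1] at g5
    rw [h7, hr1] at h5
    nlinarith
  have hlog := lt_of_mul_lt_mul_left hkey hM.le
  have hBpos : (0 : ℝ) < B := by
    have : (2 : ℝ) ≤ B := by exact_mod_cast hB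
    linarith
  rw [← Real.log_rpow hBpos] at hlog
  have hfin : (B : ℝ) ^ r < ∑ x ∈ G.image Prod.fst, A x ^ r :=
    (Real.log_lt_log_iff (Real.rpow_pos_of_pos hBpos r) hWpos).1 hlog
  refine hfin.trans_le ?_
  have hAS : ∀ x, A x ≤ SS (G.image Prod.snd) (phiG G w 1 p₁) (phiG G w 2 p₂)
      (phiG G w 3 p₃) x := by
    intro x
    rw [hAdef]
    simp only [hbdef]
    exact gain_sum_le G _ _ _ (hphi0 1 p₁) (hphi0 2 p₂) (hphi0 3 p₃) x
  have hSS0 : ∀ x, 0 ≤ SS (G.image Prod.snd) (phiG G w 1 p₁) (phiG G w 2 p₂)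
      (phiG G w 3 p₃) x := by
    intro x
    unfold SS
    exact Finset.sum_nonneg fun t _ => mul_nonneg (mul_nonneg (hphi0 1 p₁ _) (hphi0 2 p₂ _))
      (hphi0 3 p₃ _)
  calc ∑ x ∈ G.image Prod.fst, A x ^ r
      ≤ ∑ x ∈ G.image Prod.fst, (SS (G.image Prod.snd) (phiG G w 1 p₁) (phiG G w 2 p₂)
          (phiG G w 3 p₃) x) ^ r := by
        apply Finset.sum_le_sum
        intro x hx
        exact Real.rpow_le_rpow (hApos x hx).le (hAS x) hr.le
    _ ≤ _ := by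
        apply Finset.sum_le_sum_of_subset_of_nonneg
        · intro x hx
          obtain ⟨q, hq, hqx⟩ := Finset.mem_image.1 hx
          rw [Finset.mem_Ico, ← hqx]
          exact hG1 q hq
        · intro x _ _
          exact Real.rpow_nonneg (hSS0 x) r

end Vale.Agent.P141
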