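import Vale.Agent.P141.Defs

/-!
# P141, module TENSOR: tensor powers in base `B`

`lvl_step`: from a configuration `(T', f'_i)` at level `(N, K)` and digit data `(D, φ_i)` in base `B`
define `T = {t' B + τ}`, `f_i y = (∑_{v ∈ Icc (-k) k, B ∣ y - v} (f'_i ((y - v)/B) * φ_i v)^p_i)^(1/p_i)`.
* `f_i (z B + v) ≥ f'_i z * φ_i v` for all `z`, `v` (if `|v| > k` then `φ_i v = 0`);
* `∑_y f_i y^p = (∑_z f'_i z^p) (∑_v φ_i v^p) ≤ 1` (the pairs `(z, v)` with `|z| ≤ K`, `|v| ≤ k` give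
  `y = z B + v` with `|y| ≤ B K + k`);
* the map `(t', τ) ↦ t' B + τ` is injective on `T' × D` because the elements of `D` are distinct
  mod `B`, so `SS T f (x' B + d) ≥ SS T' f' x' * SS D φ d`;
* `[0, B N) = {x' B + d : 0 ≤ x' < N, 0 ≤ d < B}`.
`lvl_zero`: `T = {0}`, all `f_i` the indicator of `0`.
`lvl_pow`: induction, `B (k (2 B^n - 1)) + k ≤ k (2 B^(n+1) - 1)`; `Lvl` is monotone in `K`.
-/

namespace Vale.Agent.P141

theorem adm_mono {p : ℝ} (hp : 0 < p) {K K' : ℤ} {f : ℤ → ℝ} (h : Adm p K f) (hK : K ≤ K') :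
    Adm p K' f := by
  refine ⟨h.nonneg, fun y hy => h.supp y (hK.trans_lt hy), ?_⟩
  have hsub : Finset.Icc (-K) K ⊆ Finset.Icc (-K') K' :=
    Finset.Icc_subset_Icc (by linarith) hK
  rw [← Finset.sum_subset hsub]
  · exact h.mass
  · intro y _ hy
    have h1 : K < |y| := by
      by_contra hcon
      push Not at hcon
      exact hy (Finset.mem_Icc.2 (abs_le.1 hcon))
    rw [h.supp y h1, Real.zero_rpow hp.ne']

private theorem step_inj {B : ℤ} (hB : 2 ≤ B) (v : ℤ) (Y : Finset ℤ) :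
    Set.InjOn (fun y => (y - v) / B) (Y.filter (fun y => B ∣ y - v) : Finset ℤ) := by
  intro y hy y' hy' h
  rw [Finset.mem_coe, Finset.mem_filter] at hy hy'
  obtain ⟨c, hc⟩ := hy.2
  obtain ⟨c', hc'⟩ := hy'.2
  have hB0 : B ≠ 0 := by omega
  simp only [hc, hc', Int.mul_ediv_cancel_left _ hB0] at h
  subst h
  omega

private theorem step_one {p : ℝ} (hp : 1 < p) {B k K : ℤ} (hB : 2 ≤ B)
    {f φ : ℤ → ℝ} (hf : Adm p K f) (hφ : Adm p k φ) :
    ∃ F : ℤ → ℝ, Adm p (B * K + k) F ∧ ∀ z v, f z * φ v ≤ F (z * B + v) := by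
  have hp0 : 0 < p := by linarith
  have hB0 : B ≠ 0 := by omega
  have hBp : 0 < B := by omega
  set g : ℤ → ℤ → ℝ := fun z v => (f z * φ v) ^ p with hg
  have hg0 : ∀ z v, 0 ≤ g z v := fun z v =>
    Real.rpow_nonneg (mul_nonneg (hf.nonneg z) (hφ.nonneg v)) p
  have hgz : ∀ z v, K < |z| → g z v = 0 := by
    intro z v hz
    simp only [hg]
    rw [hf.supp z hz, zero_mul, Real.zero_rpow hp0.ne']
  set G : ℤ → ℝ := fun y =>
    ∑ v ∈ (Finset.Icc (-k) k).filter (fun v => B ∣ y - v), g ((y - v) / B) v with hG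
  have hG0 : ∀ y, 0 ≤ G y := fun y => Finset.sum_nonneg fun v _ => hg0 _ _
  refine ⟨fun y => (G y) ^ (1 / p), ⟨fun y => Real.rpow_nonneg (hG0 y) _, ?_, ?_⟩, ?_⟩
  · intro y hy
    have : G y = 0 := by
      simp only [hG]
      apply Finset.sum_eq_zero
      intro v hv
      rw [Finset.mem_filter, Finset.mem_Icc] at hv
      apply hgz
      obtain ⟨c, hc⟩ := hv.2
      rw [hc, Int.mul_ediv_cancel_left _ hB0]
      by_contra hcon
      push Not at hcon
      have h1 : |B * c| ≤ B * K := by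
        rw [abs_mul, abs_of_pos hBp]
        exact mul_le_mul_of_nonneg_left hcon hBp.le
      have h2 : |v| ≤ k := abs_le.2 hv.1
      have h3 : y = B * c + v := by omega
      rw [h3] at hy
      have h4 := abs_add_le (B * c) v
      linarith
    simp only [this]
    exact Real.zero_rpow (by positivity)
  · have e1 : ∀ y, ((G y) ^ (1 / p)) ^ p = G y := by
      intro y
      rw [← Real.rpow_mul (hG0 y), one_div_mul_cancel hp0.ne', Real.rpow_one]
    simp only [e1]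
    set Y := Finset.Icc (-(B * K + k)) (B * K + k) with hY
    have e2 : ∑ y ∈ Y, G y
        = ∑ v ∈ Finset.Icc (-k) k, ∑ y ∈ Y.filter (fun y => B ∣ y - v), g ((y - v) / B) v := by
      simp only [hG, Finset.sum_filter]
      rw [Finset.sum_comm]
    have e3 : ∀ v, ∑ y ∈ Y.filter (fun y => B ∣ y - v), g ((y - v) / B) v
        ≤ ∑ z ∈ Finset.Icc (-K) K, g z v := by
      intro v
      rw [← Finset.sum_image (f := fun z => g z v) (step_inj hB v Y)]
      have e4 : ∑ z ∈ (Y.filter (fun y => B ∣ y - v)).image (fun y => (y - v) / B), g z v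
          = ∑ z ∈ ((Y.filter (fun y => B ∣ y - v)).image (fun y => (y - v) / B)).filter
              (fun z => |z| ≤ K), g z v := by
        symm
        apply Finset.sum_filter_of_ne
        intro z _ hz
        by_contra hc
        exact hz (hgz z v (not_le.1 hc))
      rw [e4]
      apply Finset.sum_le_sum_of_subset_of_nonneg
      · intro z hz
        rw [Finset.mem_Icc]
        exact abs_le.1 (Finset.mem_filter.1 hz).2
      · intro z _ _
        exact hg0 z v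
    rw [e2]
    calc ∑ v ∈ Finset.Icc (-k) k, ∑ y ∈ Y.filter (fun y => B ∣ y - v), g ((y - v) / B) v
        ≤ ∑ v ∈ Finset.Icc (-k) k, ∑ z ∈ Finset.Icc (-K) K, g z v :=
          Finset.sum_le_sum fun v _ => e3 v
      _ = (∑ z ∈ Finset.Icc (-K) K, f z ^ p) * ∑ v ∈ Finset.Icc (-k) k, φ v ^ p := by
          rw [Finset.sum_mul_sum, Finset.sum_comm]
          refine Finset.sum_congr rfl fun z _ => Finset.sum_congr rfl fun v _ => ?_
          simp only [hg]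
          rw [Real.mul_rpow (hf.nonneg z) (hφ.nonneg v)]
      _ ≤ 1 * 1 := by
          apply mul_le_mul hf.mass hφ.mass _ zero_le_one
          exact Finset.sum_nonneg fun v _ => Real.rpow_nonneg (hφ.nonneg v) p
      _ = 1 := one_mul 1
  · intro z v
    show f z * φ v ≤ (G (z * B + v)) ^ (1 / p)
    have hfφ : 0 ≤ f z * φ v := mul_nonneg (hf.nonneg z) (hφ.nonneg v)
    by_cases hv : k < |v|
    · rw [hφ.supp v hv, mul_zero]
      exact Real.rpow_nonneg (hG0 _) _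
    · push Not at hv
      have h1 : g z v ≤ G (z * B + v) := by
        have hmem : v ∈ (Finset.Icc (-k) k).filter (fun v' => B ∣ z * B + v - v') := by
          rw [Finset.mem_filter, Finset.mem_Icc]
          refine ⟨abs_le.1 hv, ?_⟩
          rw [add_sub_cancel_right]
          exact Dvd.intro_left z rfl
        have h2 := Finset.single_le_sum (f := fun v' => g ((z * B + v - v') / B) v')
          (fun v' _ => hg0 _ _) hmem
        simp only [add_sub_cancel_right, Int.mul_ediv_cancel _ hB0] at h2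
        exact h2
      calc f z * φ v = (g z v) ^ (1 / p) := by
            simp only [hg]
            rw [← Real.rpow_mul hfφ, mul_one_div_cancel hp0.ne', Real.rpow_one]
        _ ≤ (G (z * B + v)) ^ (1 / p) :=
            Real.rpow_le_rpow (hg0 z v) h1 (by positivity)

private theorem step_SS_nonneg {T : Finset ℤ} {f₁ f₂ f₃ : ℤ → ℝ} (h1 : ∀ y, 0 ≤ f₁ y)
    (h2 : ∀ y, 0 ≤ f₂ y) (h3 : ∀ y, 0 ≤ f₃ y) (x : ℤ) : 0 ≤ SS T f₁ f₂ f₃ x :=
  Finset.sum_nonneg fun t _ => mul_nonneg (mul_nonneg (h1 _) (h2 _)) (h3 _)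

theorem lvl_step {p₁ p₂ p₃ r : ℝ} (h1 : 1 < p₁) (h2 : 1 < p₂) (h3 : 1 < p₃) (hr : 0 < r)
    {B k : ℤ} (hB : 2 ≤ B) (hk : 0 ≤ k) {D : Finset ℤ} {φ₁ φ₂ φ₃ : ℤ → ℝ}
    (a1 : Adm p₁ k φ₁) (a2 : Adm p₂ k φ₂) (a3 : Adm p₃ k φ₃) (hDk : ∀ t ∈ D, |t| ≤ k)
    (hD : ∀ s ∈ D, ∀ t ∈ D, B ∣ s - t → s = t) {W : ℝ} (hW0 : 0 ≤ W)
    (hW : W ≤ ∑ x ∈ Finset.Ico 0 B, (SS D φ₁ φ₂ φ₃ x) ^ r) {N K : ℤ} (hK : 0 ≤ K) {V : ℝ}
    (hV : 0 ≤ V) (h : Lvl p₁ p₂ p₃ r N K V) : Lvl p₁ p₂ p₃ r (B * N) (B * K + k) (W * V) := by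
  obtain ⟨T, f₁, f₂, f₃, b1, b2, b3, hT, hVs⟩ := h
  obtain ⟨F₁, c1, l1⟩ := step_one h1 hB b1 a1
  obtain ⟨F₂, c2, l2⟩ := step_one h2 hB b2 a2
  obtain ⟨F₃, c3, l3⟩ := step_one h3 hB b3 a3
  have hB0 : B ≠ 0 := by omega
  have hBp : 0 < B := by omega
  have hinj : Set.InjOn (fun q : ℤ × ℤ => q.1 * B + q.2) (T ×ˢ D : Finset (ℤ × ℤ)) := by
    rintro ⟨t, τ⟩ hq ⟨t', τ'⟩ hq' he
    rw [Finset.mem_coe, Finset.mem_product] at hq hq'
    simp only at he
    have h4 : B ∣ τ - τ' := ⟨t' - t, by linarith⟩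
    have h5 := hD τ hq.2 τ' hq'.2 h4
    subst h5
    have h6 : t * B = t' * B := by linarith
    have h7 := mul_right_cancel₀ hB0 h6
    rw [h7]
  refine ⟨(T ×ˢ D).image (fun q : ℤ × ℤ => q.1 * B + q.2), F₁, F₂, F₃, c1, c2, c3, ?_, ?_⟩
  · intro t ht
    rw [Finset.mem_image] at ht
    obtain ⟨⟨t', τ⟩, hq, rfl⟩ := ht
    rw [Finset.mem_product] at hq
    have h4 := abs_add_le (t' * B) τ
    have h5 : |t' * B| ≤ B * K := by
      rw [abs_mul, abs_of_pos hBp, mul_comm]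
      exact mul_le_mul_of_nonneg_left (hT t' hq.1) hBp.le
    have h6 := hDk τ hq.2
    exact h4.trans (add_le_add h5 h6)
  · set T1 := (T ×ˢ D).image (fun q : ℤ × ℤ => q.1 * B + q.2) with hT1
    have hSS : ∀ x d, SS T f₁ f₂ f₃ x * SS D φ₁ φ₂ φ₃ d ≤ SS T1 F₁ F₂ F₃ (x * B + d) := by
      intro x d
      have e1 : SS T1 F₁ F₂ F₃ (x * B + d) = ∑ t ∈ T, ∑ τ ∈ D,
          F₁ (x * B + d - (t * B + τ)) * F₂ (x * B + d - 2 * (t * B + τ))
            * F₃ (x * B + d - 3 * (t * B + τ)) := by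
        unfold SS
        rw [hT1, Finset.sum_image hinj, Finset.sum_product]
      rw [e1]
      unfold SS
      rw [Finset.sum_mul_sum]
      refine Finset.sum_le_sum fun t _ => Finset.sum_le_sum fun τ _ => ?_
      have i1 := l1 (x - t) (d - τ)
      have i2 := l2 (x - 2 * t) (d - 2 * τ)
      have i3 := l3 (x - 3 * t) (d - 3 * τ)
      have j1 : (x - t) * B + (d - τ) = x * B + d - (t * B + τ) := by ring
      have j2 : (x - 2 * t) * B + (d - 2 * τ) = x * B + d - 2 * (t * B + τ) := by ring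
      have j3 : (x - 3 * t) * B + (d - 3 * τ) = x * B + d - 3 * (t * B + τ) := by ring
      rw [j1] at i1
      rw [j2] at i2
      rw [j3] at i3
      have n1 : 0 ≤ f₁ (x - t) * φ₁ (d - τ) := mul_nonneg (b1.nonneg _) (a1.nonneg _)
      have n2 : 0 ≤ f₂ (x - 2 * t) * φ₂ (d - 2 * τ) := mul_nonneg (b2.nonneg _) (a2.nonneg _)
      have n3 : 0 ≤ f₃ (x - 3 * t) * φ₃ (d - 3 * τ) := mul_nonneg (b3.nonneg _) (a3.nonneg _)
      calc f₁ (x - t) * f₂ (x - 2 * t) * f₃ (x - 3 * t)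
            * (φ₁ (d - τ) * φ₂ (d - 2 * τ) * φ₃ (d - 3 * τ))
          = (f₁ (x - t) * φ₁ (d - τ)) * (f₂ (x - 2 * t) * φ₂ (d - 2 * τ))
            * (f₃ (x - 3 * t) * φ₃ (d - 3 * τ)) := by ring
        _ ≤ _ := mul_le_mul (mul_le_mul i1 i2 n2 (n1.trans i1)) i3 n3
            (mul_nonneg (n1.trans i1) (n2.trans i2))
    have hinj2 : Set.InjOn (fun q : ℤ × ℤ => q.1 * B + q.2)
        (Finset.Ico 0 N ×ˢ Finset.Ico 0 B : Finset (ℤ × ℤ)) := by
      rintro ⟨x, d⟩ hq ⟨x', d'⟩ hq' he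
      rw [Finset.mem_coe, Finset.mem_product, Finset.mem_Ico, Finset.mem_Ico] at hq hq'
      simp only at he hq hq'
      have h4 : (x - x') * B = d' - d := by linarith
      have h5 : x = x' := by
        by_contra hne
        rcases lt_or_gt_of_ne hne with hlt | hgt
        · have : x - x' ≤ -1 := by omega
          nlinarith [hq.2.1, hq.2.2, hq'.2.1, hq'.2.2]
        · have : 1 ≤ x - x' := by omega
          nlinarith [hq.2.1, hq.2.2, hq'.2.1, hq'.2.2]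
      subst h5
      have : d = d' := by linarith
      rw [this]
    have hSn : ∀ x, 0 ≤ SS T1 F₁ F₂ F₃ x := step_SS_nonneg c1.nonneg c2.nonneg c3.nonneg
    have hS1 : ∀ x, 0 ≤ SS T f₁ f₂ f₃ x := step_SS_nonneg b1.nonneg b2.nonneg b3.nonneg
    have hS2 : ∀ x, 0 ≤ SS D φ₁ φ₂ φ₃ x := step_SS_nonneg a1.nonneg a2.nonneg a3.nonneg
    calc W * V ≤ (∑ x ∈ Finset.Ico 0 B, (SS D φ₁ φ₂ φ₃ x) ^ r)
          * ∑ x ∈ Finset.Ico 0 N, (SS T f₁ f₂ f₃ x) ^ r :=
          mul_le_mul hW hVs hV (hW0.trans hW)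
      _ = ∑ q ∈ Finset.Ico 0 N ×ˢ Finset.Ico 0 B,
            (SS T f₁ f₂ f₃ q.1 * SS D φ₁ φ₂ φ₃ q.2) ^ r := by
          rw [mul_comm, Finset.sum_mul_sum, Finset.sum_product]
          refine Finset.sum_congr rfl fun x _ => Finset.sum_congr rfl fun d _ => ?_
          rw [Real.mul_rpow (hS1 x) (hS2 d)]
      _ ≤ ∑ q ∈ Finset.Ico 0 N ×ˢ Finset.Ico 0 B, (SS T1 F₁ F₂ F₃ (q.1 * B + q.2)) ^ r :=
          Finset.sum_le_sum fun q _ =>
            Real.rpow_le_rpow (mul_nonneg (hS1 _) (hS2 _)) (hSS q.1 q.2) hr.le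
      _ = ∑ x ∈ (Finset.Ico 0 N ×ˢ Finset.Ico 0 B).image (fun q : ℤ × ℤ => q.1 * B + q.2),
            (SS T1 F₁ F₂ F₃ x) ^ r :=
          (Finset.sum_image (f := fun x => (SS T1 F₁ F₂ F₃ x) ^ r) hinj2).symm
      _ ≤ ∑ x ∈ Finset.Ico 0 (B * N), (SS T1 F₁ F₂ F₃ x) ^ r := by
          apply Finset.sum_le_sum_of_subset_of_nonneg
          · intro x hx
            rw [Finset.mem_image] at hx
            obtain ⟨⟨x', d⟩, hq, rfl⟩ := hx
            rw [Finset.mem_product, Finset.mem_Ico, Finset.mem_Ico] at hq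
            simp only at hq
            rw [Finset.mem_Ico]
            constructor
            · have := mul_nonneg hq.1.1 hBp.le
              simp only
              linarith [hq.2.1]
            · have h8 : x' + 1 ≤ N := by omega
              simp only
              nlinarith [hq.2.2]
          · intro x _ _
            exact Real.rpow_nonneg (hSn x) r

private theorem POW_mono {p₁ p₂ p₃ r : ℝ} (h1 : 0 < p₁) (h2 : 0 < p₂) (h3 : 0 < p₃)
    {N K K' : ℤ} {W : ℝ} (hK : K ≤ K') (h : Lvl p₁ p₂ p₃ r N K W) : Lvl p₁ p₂ p₃ r N K' W := by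
  obtain ⟨T, f₁, f₂, f₃, b1, b2, b3, hT, hW⟩ := h
  exact ⟨T, f₁, f₂, f₃, adm_mono h1 b1 hK, adm_mono h2 b2 hK, adm_mono h3 b3 hK,
    fun t ht => (hT t ht).trans hK, hW⟩

private theorem POW_adm {p : ℝ} (hp : 0 < p) {k : ℤ} (hk : 0 ≤ k) :
    Adm p k (fun y : ℤ => if y = 0 then (1 : ℝ) else 0) := by
  refine ⟨fun y => ?_, fun y hy => ?_, ?_⟩
  · split_ifs <;> norm_num
  · have : y ≠ 0 := by
      rintro rfl
      rw [abs_zero] at hy
      omega
    simp [this]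
  · rw [Finset.sum_eq_single (0 : ℤ)]
    · simp
    · intro y _ hy
      simp only [hy, if_false]
      exact Real.zero_rpow hp.ne'
    · intro h0
      exact absurd (Finset.mem_Icc.2 ⟨by omega, hk⟩) h0

private theorem POW_zero {p₁ p₂ p₃ r : ℝ} (h1 : 0 < p₁) (h2 : 0 < p₂) (h3 : 0 < p₃)
    {k : ℤ} (hk : 0 ≤ k) : Lvl p₁ p₂ p₃ r 1 k 1 := by
  refine ⟨{0}, _, _, _, POW_adm h1 hk, POW_adm h2 hk, POW_adm h3 hk, ?_, ?_⟩
  · intro t ht
    rw [Finset.mem_singleton.1 ht, abs_zero]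
    exact hk
  · have : Finset.Ico (0 : ℤ) 1 = {0} := by decide
    rw [this, Finset.sum_singleton]
    simp [SS]

theorem lvl_pow {p₁ p₂ p₃ r : ℝ} (h1 : 1 < p₁) (h2 : 1 < p₂) (h3 : 1 < p₃) (hr : 0 < r)
    {B k : ℤ} (hB : 2 ≤ B) (hk : 0 ≤ k) {D : Finset ℤ} {φ₁ φ₂ φ₃ : ℤ → ℝ}
    (a1 : Adm p₁ k φ₁) (a2 : Adm p₂ k φ₂) (a3 : Adm p₃ k φ₃) (hDk : ∀ t ∈ D, |t| ≤ k)
    (hD : ∀ s ∈ D, ∀ t ∈ D, B ∣ s - t → s = t) {W : ℝ} (hW0 : 0 ≤ W)
    (hW : W ≤ ∑ x ∈ Finset.Ico 0 B, (SS D φ₁ φ₂ φ₃ x) ^ r) (n : ℕ) :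
    Lvl p₁ p₂ p₃ r (B ^ n) (k * (2 * B ^ n - 1)) (W ^ n) := by
  have hp1 : 0 < p₁ := zero_lt_one.trans h1
  have hp2 : 0 < p₂ := zero_lt_one.trans h2
  have hp3 : 0 < p₃ := zero_lt_one.trans h3
  induction n with
  | zero =>
    have := POW_zero (r := r) hp1 hp2 hp3 hk
    simpa using this
  | succ n ih =>
    have hBn : (1 : ℤ) ≤ B ^ n := one_le_pow₀ (by linarith)
    have hK : 0 ≤ k * (2 * B ^ n - 1) := mul_nonneg hk (by linarith)
    have hs := lvl_step h1 h2 h3 hr hB hk a1 a2 a3 hDk hD hW0 hW hK (pow_nonneg hW0 n) ih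
    have e1 : B ^ (n + 1) = B * B ^ n := by ring
    have e2 : W ^ (n + 1) = W * W ^ n := by ring
    rw [e1, e2]
    refine POW_mono hp1 hp2 hp3 ?_ hs
    nlinarith [mul_nonneg hk (show (0 : ℤ) ≤ B - 2 by linarith)]

end Vale.Agent.P141
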