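import Vale.Agent.P141.Transfer
import Vale.Agent.P141.Tensor
import Vale.Agent.P141.Entropy

/-!
# P141, module FINAL: assembly

`not_bounded_digit`: digit data with gain `> B^r` contradict boundedness: `lvl_pow` + `transfer`
give `W^n ≤ (2 C k B^n)^r`, i.e. `(W / B^r)^n ≤ (2 C k)^r` for all `n`.
-/

open Filter Topology
open scoped ENNReal

namespace Vale.Agent.P141

theorem not_bounded_digit {p₁ p₂ p₃ r : ℝ} (h1 : 1 < p₁) (h2 : 1 < p₂) (h3 : 1 < p₃) (hr : 0 < r)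
    {B k : ℤ} (hB : 2 ≤ B) (hk : 1 ≤ k) {D : Finset ℤ} {φ₁ φ₂ φ₃ : ℤ → ℝ}
    (a1 : Adm p₁ k φ₁) (a2 : Adm p₂ k φ₂) (a3 : Adm p₃ k φ₃) (hDk : ∀ t ∈ D, |t| ≤ k)
    (hD : ∀ s ∈ D, ∀ t ∈ D, B ∣ s - t → s = t)
    (hW : (B : ℝ) ^ r < ∑ x ∈ Finset.Ico 0 B, (SS D φ₁ φ₂ φ₃ x) ^ r) :
    ¬ BoundedAt (ENNReal.ofReal p₁) (ENNReal.ofReal p₂) (ENNReal.ofReal p₃)
      (ENNReal.ofReal r) := by
  intro hbd
  obtain ⟨C, hC, htr⟩ := transfer h1 h2 h3 hr hbd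
  set W : ℝ := ∑ x ∈ Finset.Ico 0 B, (SS D φ₁ φ₂ φ₃ x) ^ r with hWdef
  have hB0 : (0 : ℝ) < (B : ℝ) := by exact_mod_cast (by omega : (0 : ℤ) < B)
  have hk0 : (0 : ℝ) < (k : ℝ) := by exact_mod_cast (by omega : (0 : ℤ) < k)
  have hBr : 0 < (B : ℝ) ^ r := Real.rpow_pos_of_pos hB0 r
  have hW0 : 0 ≤ W := (hBr.trans hW).le
  have key : ∀ n : ℕ, (W / (B : ℝ) ^ r) ^ n ≤ (2 * C * k) ^ r := by
    intro n
    have hpow : (1 : ℤ) ≤ B ^ n := one_le_pow₀ (by omega)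
    have hle : B ^ n ≤ 2 * B ^ n - 1 := by omega
    have hK2 : 2 * B ^ n - 1 ≤ k * (2 * B ^ n - 1) := by nlinarith
    have h := htr (B ^ n) (k * (2 * B ^ n - 1)) (W ^ n) (by omega) (by omega)
      (lvl_pow h1 h2 h3 hr hB (by omega) a1 a2 a3 hDk hD hW0 le_rfl n)
    have h5 : (W : ℝ) ^ n ≤ (2 * C * k) ^ r * ((B : ℝ) ^ r) ^ n := by
      refine h.trans ?_
      rw [← Real.rpow_natCast ((B : ℝ) ^ r) n, ← Real.rpow_mul hB0.le, mul_comm r,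
        Real.rpow_mul hB0.le, Real.rpow_natCast, ← Real.mul_rpow (by positivity) (by positivity)]
      refine Real.rpow_le_rpow ?_ ?_ hr.le
      · refine mul_nonneg hC.le ?_
        exact_mod_cast (by nlinarith : (0 : ℤ) ≤ k * (2 * B ^ n - 1))
      · push_cast
        have : (0 : ℝ) < (B : ℝ) ^ n := by positivity
        nlinarith [mul_pos hC hk0]
    rw [div_pow, div_le_iff₀ (by positivity)]
    exact h5
  have hgt : 1 < W / (B : ℝ) ^ r := by rwa [lt_div_iff₀ hBr, one_mul]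
  obtain ⟨n, hn⟩ := pow_unbounded_of_one_lt ((2 * C * k) ^ r) hgt
  exact absurd (key n) (not_le.mpr hn)

end Vale.Agent.P141
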