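import Vale.Agent.P141.Final
import Vale.Agent.P141.Example

/-!
# P141: assembly of the main theorem
-/

open Filter Topology
open scoped ENNReal

namespace Vale.Agent.P141

/-- real weights -/
noncomputable def exw (m : ℤ × ℤ → ℕ) (q : ℤ × ℤ) : ℝ := (m q : ℝ)

theorem exw_pos {m : ℤ × ℤ → ℕ} (hm : ∀ q ∈ exG, 0 < m q) : ∀ q ∈ exG, 0 < exw m q :=
  fun q hq => by
    unfold exw
    exact_mod_cast hm q hq

theorem exG_nonempty : exG.Nonempty := ⟨(0, 0), by decide +kernel⟩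

theorem cnt_ex (m : ℤ × ℤ → ℕ) (g : ℤ × ℤ → ℤ) (v : ℤ) :
    cnt exG (exw m) g v = (cntN m g v : ℝ) := by
  unfold cnt cntN exw
  push_cast
  rfl

theorem cntN_pos {m : ℤ × ℤ → ℕ} (hm : ∀ q ∈ exG, 0 < m q) (g : ℤ × ℤ → ℤ) {q : ℤ × ℤ}
    (hq : q ∈ exG) : 0 < cntN m g (g q) := by
  unfold cntN
  apply Finset.sum_pos
  · intro p hp
    exact hm p (Finset.mem_filter.mp hp).1
  · exact ⟨q, Finset.mem_filter.mpr ⟨hq, rfl⟩⟩

theorem NN_pos {m : ℤ × ℤ → ℕ} (hm : ∀ q ∈ exG, 0 < m q) (g : ℤ × ℤ → ℤ) : 0 < NN m g := by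
  unfold NN
  exact Finset.prod_pos fun q hq => pow_pos (cntN_pos hm g hq) _

theorem NP_pos {m : ℤ × ℤ → ℕ} (hm : ∀ q ∈ exG, 0 < m q) : 0 < NP m := by
  unfold NP
  exact Finset.prod_pos fun q hq => pow_pos (hm q hq) _

theorem EE_ex {m : ℤ × ℤ → ℕ} (hm : ∀ q ∈ exG, 0 < m q) (g : ℤ × ℤ → ℤ) :
    EE exG (exw m) g = Real.log (NN m g) := by
  unfold EE NN
  push_cast
  rw [Real.log_prod]
  · refine Finset.sum_congr rfl fun q _ => ?_
    rw [Real.log_pow, cnt_ex]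
    rfl
  · intro q hq
    have := cntN_pos hm g hq
    positivity

theorem EP_ex {m : ℤ × ℤ → ℕ} (hm : ∀ q ∈ exG, 0 < m q) :
    ∑ q ∈ exG, exw m q * Real.log (exw m q) = Real.log (NP m) := by
  unfold NP
  push_cast
  rw [Real.log_prod]
  · refine Finset.sum_congr rfl fun q _ => ?_
    rw [Real.log_pow]
    rfl
  · intro q hq
    have := hm q hq
    positivity

theorem sum_exw {m : ℤ × ℤ → ℕ} {M : ℕ} (h : ∑ q ∈ exG, m q = M) :
    ∑ q ∈ exG, exw m q = (M : ℝ) := by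
  unfold exw
  rw [← h]
  push_cast
  rfl

theorem log_step {M a Np Nx Ni : ℕ} (ha : a ≤ 10000) (h1 : 0 < Np) (h2 : 0 < Nx) (h3 : 0 < Ni)
    (h : 18 ^ (M * a) * Np ^ a * Nx ^ (10000 - a) ≤ Ni ^ 10000) :
    ((a : ℝ) / 10000) * (M * Real.log 18 + Real.log Np - Real.log Nx) ≤
      Real.log Ni - Real.log Nx := by
  have hp1 : (0 : ℝ) < Np := by exact_mod_cast h1
  have hp2 : (0 : ℝ) < Nx := by exact_mod_cast h2
  have hp3 : (0 : ℝ) < Ni := by exact_mod_cast h3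
  have h' : ((18 : ℝ) ^ (M * a) * (Np : ℝ) ^ a * (Nx : ℝ) ^ (10000 - a)) ≤ (Ni : ℝ) ^ 10000 := by
    exact_mod_cast h
  have h4 := Real.log_le_log (by positivity) h'
  rw [Real.log_mul (by positivity) (by positivity), Real.log_mul (by positivity) (by positivity),
    Real.log_pow, Real.log_pow, Real.log_pow, Real.log_pow, Nat.cast_sub ha] at h4
  push_cast at h4
  rw [div_mul_eq_mul_div, div_le_iff₀ (by norm_num)]
  linarith

theorem d_step {M Np Nx : ℕ} (h1 : 0 < Np) (h2 : 0 < Nx) (h : Nx < 18 ^ M * Np) :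
    0 < M * Real.log 18 + Real.log Np - Real.log Nx := by
  have hp1 : (0 : ℝ) < Np := by exact_mod_cast h1
  have hp2 : (0 : ℝ) < Nx := by exact_mod_cast h2
  have h' : (Nx : ℝ) < (18 : ℝ) ^ M * (Np : ℝ) := by exact_mod_cast h
  have h4 := Real.log_lt_log hp2 h'
  rw [Real.log_mul (by positivity) (by positivity), Real.log_pow] at h4
  linarith

theorem not_bounded_cfg {m : ℤ × ℤ → ℕ} (hm : ∀ q ∈ exG, 0 < m q) {M a₁ a₂ a₃ : ℕ}
    (hM : ∑ q ∈ exG, m q = M) (ha1 : a₁ ≤ 10000) (ha2 : a₂ ≤ 10000) (ha3 : a₃ ≤ 10000)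
    (hd : NN m Prod.fst < 18 ^ M * NP m)
    (hm1 : 18 ^ (M * a₁) * NP m ^ a₁ * NN m Prod.fst ^ (10000 - a₁) ≤ NN m (lin 1) ^ 10000)
    (hm2 : 18 ^ (M * a₂) * NP m ^ a₂ * NN m Prod.fst ^ (10000 - a₂) ≤ NN m (lin 2) ^ 10000)
    (hm3 : 18 ^ (M * a₃) * NP m ^ a₃ * NN m Prod.fst ^ (10000 - a₃) ≤ NN m (lin 3) ^ 10000)
    {p₁ p₂ p₃ r : ℝ} (h1 : 1 < p₁) (h2 : 1 < p₂) (h3 : 1 < p₃) (hr : 0 < r)
    (hH : 1 / r = 1 / p₁ + 1 / p₂ + 1 / p₃)
    (hc : 1 < (a₁ / 10000 : ℝ) / p₁ + (a₂ / 10000 : ℝ) / p₂ + (a₃ / 10000 : ℝ) / p₃) :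
    ¬ BoundedAt (ENNReal.ofReal p₁) (ENNReal.ofReal p₂) (ENNReal.ofReal p₃)
      (ENNReal.ofReal r) := by
  have hD := d_step (NP_pos hm) (NN_pos hm Prod.fst) hd
  have e1 := log_step ha1 (NP_pos hm) (NN_pos hm Prod.fst) (NN_pos hm (lin 1)) hm1
  have e2 := log_step ha2 (NP_pos hm) (NN_pos hm Prod.fst) (NN_pos hm (lin 2)) hm2
  have e3 := log_step ha3 (NP_pos hm) (NN_pos hm Prod.fst) (NN_pos hm (lin 3)) hm3
  set D : ℝ := M * Real.log 18 + Real.log (NP m) - Real.log (NN m Prod.fst) with hDdef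
  apply not_bounded_digit h1 h2 h3 hr (B := 18) (k := 20) (by norm_num) (by norm_num)
    (phiG_adm exG (exw m) exG_nonempty (exw_pos hm) 1 (by linarith) fun q hq => (ex_lin q hq).1)
    (phiG_adm exG (exw m) exG_nonempty (exw_pos hm) 2 (by linarith) fun q hq => (ex_lin q hq).2.1)
    (phiG_adm exG (exw m) exG_nonempty (exw_pos hm) 3 (by linarith)
      fun q hq => (ex_lin q hq).2.2.1)
    (D := exG.image Prod.snd)
  · intro t ht
    obtain ⟨q, hq, rfl⟩ := Finset.mem_image.mp ht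
    exact (ex_lin q hq).2.2.2
  · exact ex_mod
  · apply entropy_gain exG (exw m) exG_nonempty (exw_pos hm) (by norm_num) ex_fst h1 h2 h3 hr hH
    rw [EE_ex hm, EE_ex hm, EE_ex hm, EE_ex hm, EP_ex hm, sum_exw hM]
    push_cast
    have k1 : (a₁ / 10000 : ℝ) * D / p₁ ≤
        (Real.log (NN m (lin 1)) - Real.log (NN m Prod.fst)) / p₁ :=
      div_le_div_of_nonneg_right e1 (by linarith)
    have k2 : (a₂ / 10000 : ℝ) * D / p₂ ≤
        (Real.log (NN m (lin 2)) - Real.log (NN m Prod.fst)) / p₂ :=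
      div_le_div_of_nonneg_right e2 (by linarith)
    have k3 : (a₃ / 10000 : ℝ) * D / p₃ ≤
        (Real.log (NN m (lin 3)) - Real.log (NN m Prod.fst)) / p₃ :=
      div_le_div_of_nonneg_right e3 (by linarith)
    have k4 : D * 1 < D * ((a₁ / 10000 : ℝ) / p₁ + (a₂ / 10000 : ℝ) / p₂ +
      (a₃ / 10000 : ℝ) / p₃) := mul_lt_mul_of_pos_left hc hD
    have k5 : D * ((a₁ / 10000 : ℝ) / p₁ + (a₂ / 10000 : ℝ) / p₂ + (a₃ / 10000 : ℝ) / p₃)
        = (a₁ / 10000 : ℝ) * D / p₁ + (a₂ / 10000 : ℝ) * D / p₂ + (a₃ / 10000 : ℝ) * D / p₃ := by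
      ring
    linarith

theorem not_bounded_A {p₁ p₂ p₃ r : ℝ} (h1 : 1 < p₁) (h2 : 1 < p₂) (h3 : 1 < p₃) (hr : 0 < r)
    (hH : 1 / r = 1 / p₁ + 1 / p₂ + 1 / p₃)
    (hc : 1 < 0.4745 / p₁ + 0.4658 / p₂ + 0.4429 / p₃) :
    ¬ BoundedAt (ENNReal.ofReal p₁) (ENNReal.ofReal p₂) (ENNReal.ofReal p₃)
      (ENNReal.ofReal r) := by
  refine not_bounded_cfg exA_pos exA_tot (by norm_num) (by norm_num) (by norm_num) exA_d exA_1
    exA_2 exA_3 h1 h2 h3 hr hH ?_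
  refine lt_of_lt_of_eq hc ?_
  norm_num

theorem not_bounded_B {p₁ p₂ p₃ r : ℝ} (h1 : 1 < p₁) (h2 : 1 < p₂) (h3 : 1 < p₃) (hr : 0 < r)
    (hH : 1 / r = 1 / p₁ + 1 / p₂ + 1 / p₃)
    (hc : 1 < 0.4607 / p₁ + 0.4603 / p₂ + 0.4575 / p₃) :
    ¬ BoundedAt (ENNReal.ofReal p₁) (ENNReal.ofReal p₂) (ENNReal.ofReal p₃)
      (ENNReal.ofReal r) := by
  refine not_bounded_cfg exB_pos exB_tot (by norm_num) (by norm_num) (by norm_num) exB_d exB_1
    exB_2 exB_3 h1 h2 h3 hr hH ?_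
  refine lt_of_lt_of_eq hc ?_
  norm_num

/-- real parameters of a Hölder tuple with finite exponents -/
theorem holder_real {p₁ p₂ p₃ r : ℝ≥0∞} (hH : IsHolder p₁ p₂ p₃ r) (n1 : p₁ ≠ ∞) (n2 : p₂ ≠ ∞)
    (n3 : p₃ ≠ ∞) : 1 < p₁.toReal ∧ 1 < p₂.toReal ∧ 1 < p₃.toReal ∧ 0 < r.toReal ∧
      1 / r.toReal = 1 / p₁.toReal + 1 / p₂.toReal + 1 / p₃.toReal := by
  obtain ⟨h1, h2, h3, hr0, hr, hE⟩ := hH
  have g1 : 1 < p₁.toReal := by
    rw [← ENNReal.toReal_one]; exact ENNReal.toReal_strict_mono n1 h1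
  have g2 : 1 < p₂.toReal := by
    rw [← ENNReal.toReal_one]; exact ENNReal.toReal_strict_mono n2 h2
  have g3 : 1 < p₃.toReal := by
    rw [← ENNReal.toReal_one]; exact ENNReal.toReal_strict_mono n3 h3
  refine ⟨g1, g2, g3, ENNReal.toReal_pos hr0.ne' hr.ne, ?_⟩
  have z1 : p₁ ≠ 0 := (zero_lt_one.trans h1).ne'
  have z2 : p₂ ≠ 0 := (zero_lt_one.trans h2).ne'
  have z3 : p₃ ≠ 0 := (zero_lt_one.trans h3).ne'
  have h := congrArg ENNReal.toReal hE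
  rw [ENNReal.toReal_add (ENNReal.add_ne_top.mpr ⟨ENNReal.inv_ne_top.mpr z1,
    ENNReal.inv_ne_top.mpr z2⟩) (ENNReal.inv_ne_top.mpr z3),
    ENNReal.toReal_add (ENNReal.inv_ne_top.mpr z1) (ENNReal.inv_ne_top.mpr z2),
    ENNReal.toReal_inv, ENNReal.toReal_inv, ENNReal.toReal_inv, ENNReal.toReal_inv] at h
  rw [one_div, one_div, one_div, one_div]
  exact h

/-- `c / p < c` also for `p = ∞` -/
theorem div_toReal_lt {p : ℝ≥0∞} (hp : 1 < p) {c : ℝ} (hc : 0 < c) : c / p.toReal < c := by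
  rcases eq_or_ne p ∞ with rfl | hne
  · simpa using hc
  · have : 1 < p.toReal := by
      rw [← ENNReal.toReal_one]
      exact ENNReal.toReal_strict_mono hne hp
    rw [div_lt_iff₀ (by linarith)]
    nlinarith

/-- the region -/
theorem not_bounded_region {p₁ p₂ p₃ r : ℝ≥0∞} (hH : IsHolder p₁ p₂ p₃ r)
    (hc : 1 < 0.4745 / p₁.toReal + 0.4658 / p₂.toReal + 0.4429 / p₃.toReal) :
    ¬ BoundedAt p₁ p₂ p₃ r := by
  have b1 := div_toReal_lt hH.1 (c := 0.4745) (by norm_num)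
  have b2 := div_toReal_lt hH.2.1 (c := 0.4658) (by norm_num)
  have b3 := div_toReal_lt hH.2.2.1 (c := 0.4429) (by norm_num)
  have n1 : p₁ ≠ ∞ := by
    rintro rfl
    rw [ENNReal.toReal_top, div_zero] at hc
    linarith
  have n2 : p₂ ≠ ∞ := by
    rintro rfl
    rw [ENNReal.toReal_top, div_zero] at hc
    linarith
  have n3 : p₃ ≠ ∞ := by
    rintro rfl
    rw [ENNReal.toReal_top, div_zero] at hc
    linarith
  obtain ⟨g1, g2, g3, gr, hEr⟩ := holder_real hH n1 n2 n3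
  have := not_bounded_A g1 g2 g3 gr hEr hc
  rwa [ENNReal.ofReal_toReal n1, ENNReal.ofReal_toReal n2, ENNReal.ofReal_toReal n3,
    ENNReal.ofReal_toReal hH.2.2.2.2.1.ne] at this

/-- every tuple with `r < 0.459` -/
theorem not_bounded_all {p₁ p₂ p₃ r : ℝ≥0∞} (hH : IsHolder p₁ p₂ p₃ r)
    (hc : r.toReal < 0.459) : ¬ BoundedAt p₁ p₂ p₃ r := by
  -- all exponents are finite
  have hr0 : 0 < r.toReal := ENNReal.toReal_pos hH.2.2.2.1.ne' hH.2.2.2.2.1.ne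
  have hinv : ∀ p : ℝ≥0∞, 1 < p → p⁻¹ ≤ 1 := fun p hp => ENNReal.inv_le_one.mpr hp.le
  have hbig : (2 : ℝ≥0∞) < r⁻¹ := by
    rw [ENNReal.lt_inv_iff_lt_inv]
    have h1 : r = ENNReal.ofReal r.toReal := (ENNReal.ofReal_toReal hH.2.2.2.2.1.ne).symm
    have h2 : (2 : ℝ≥0∞)⁻¹ = ENNReal.ofReal (2⁻¹) := by
      rw [ENNReal.ofReal_inv_of_pos (by norm_num)]
      norm_num
    rw [h1, h2, ENNReal.ofReal_lt_ofReal_iff (by norm_num)]
    refine hc.trans ?_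
    norm_num
  have n1 : p₁ ≠ ∞ := by
    rintro rfl
    have h := hH.2.2.2.2.2
    rw [ENNReal.inv_top, zero_add] at h
    have h' : p₂⁻¹ + p₃⁻¹ ≤ 1 + 1 := add_le_add (hinv p₂ hH.2.1) (hinv p₃ hH.2.2.1)
    rw [h, ← one_add_one_eq_two] at hbig
    exact absurd (hbig.trans_le h') (lt_irrefl _)
  have n2 : p₂ ≠ ∞ := by
    rintro rfl
    have h := hH.2.2.2.2.2
    rw [ENNReal.inv_top, add_zero] at h
    have h' : p₁⁻¹ + p₃⁻¹ ≤ 1 + 1 := add_le_add (hinv p₁ hH.1) (hinv p₃ hH.2.2.1)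
    rw [h, ← one_add_one_eq_two] at hbig
    exact absurd (hbig.trans_le h') (lt_irrefl _)
  have n3 : p₃ ≠ ∞ := by
    rintro rfl
    have h := hH.2.2.2.2.2
    rw [ENNReal.inv_top, add_zero] at h
    have h' : p₁⁻¹ + p₂⁻¹ ≤ 1 + 1 := add_le_add (hinv p₁ hH.1) (hinv p₂ hH.2.1)
    rw [h, ← one_add_one_eq_two] at hbig
    exact absurd (hbig.trans_le h') (lt_irrefl _)
  obtain ⟨g1, g2, g3, gr, hEr⟩ := holder_real hH n1 n2 n3
  have hsum : 1 / 0.459 < 1 / p₁.toReal + 1 / p₂.toReal + 1 / p₃.toReal := by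
    rw [← hEr]
    exact one_div_lt_one_div_of_lt gr hc
  have k1 : 1 / p₁.toReal < 1 := by rw [div_lt_one (by linarith)]; exact g1
  have k2 : 1 / p₂.toReal < 1 := by rw [div_lt_one (by linarith)]; exact g2
  have k3 : 1 / p₃.toReal < 1 := by rw [div_lt_one (by linarith)]; exact g3
  have hfin : 1 < 0.4607 / p₁.toReal + 0.4603 / p₂.toReal + 0.4575 / p₃.toReal := by
    have e1 : 0.4607 / p₁.toReal = 0.4607 * (1 / p₁.toReal) := by ring
    have e2 : 0.4603 / p₂.toReal = 0.4603 * (1 / p₂.toReal) := by ring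
    have e3 : 0.4575 / p₃.toReal = 0.4575 * (1 / p₃.toReal) := by ring
    rw [e1, e2, e3]
    have e4 : (2.1786 : ℝ) < 1 / 0.459 := by norm_num
    nlinarith
  have := not_bounded_B g1 g2 g3 gr hEr hfin
  rwa [ENNReal.ofReal_toReal n1, ENNReal.ofReal_toReal n2, ENNReal.ofReal_toReal n3,
    ENNReal.ofReal_toReal hH.2.2.2.2.1.ne] at this

theorem not_bounded_small {p₁ p₂ p₃ r : ℝ≥0∞} (hH : IsHolder p₁ p₂ p₃ r)
    (hr : r < 459 / 1000) : ¬ BoundedAt p₁ p₂ p₃ r := by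
  apply not_bounded_all hH
  have h1 : ((459 / 1000 : ℝ≥0∞)).toReal = 0.459 := by
    rw [ENNReal.toReal_div]
    norm_num
  rw [← h1]
  exact ENNReal.toReal_strict_mono (ENNReal.div_ne_top (by norm_num) (by norm_num)) hr

theorem not_bounded_balanced {r : ℝ≥0∞} (h1 : 1 / 3 < r) (h2 : r ≤ 461 / 1000) :
    IsHolder (3 * r) (3 * r) (3 * r) r ∧ ¬ BoundedAt (3 * r) (3 * r) (3 * r) r := by
  have hr0 : 0 < r := lt_of_le_of_lt zero_le h1
  have hrt : r < ∞ := lt_of_le_of_lt h2 (ENNReal.div_lt_top (by norm_num) (by norm_num))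
  have h3 : 1 < 3 * r := by
    rw [mul_comm]
    rwa [ENNReal.div_lt_iff (Or.inl (by norm_num)) (Or.inl (by norm_num))] at h1
  have hinv : r⁻¹ = (3 * r)⁻¹ + (3 * r)⁻¹ + (3 * r)⁻¹ := by
    rw [ENNReal.mul_inv (Or.inl (by norm_num)) (Or.inl (by norm_num)), ← add_mul, ← add_mul]
    have : (3 : ℝ≥0∞)⁻¹ + 3⁻¹ + 3⁻¹ = 1 := ENNReal.inv_three_add_inv_three
    rw [this, one_mul]
  have hH : IsHolder (3 * r) (3 * r) (3 * r) r := ⟨h3, h3, h3, hr0, hrt, hinv⟩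
  refine ⟨hH, not_bounded_region hH ?_⟩
  have h4 : r.toReal ≤ 0.461 := by
    have h5 : ((461 / 1000 : ℝ≥0∞)).toReal = 0.461 := by
      rw [ENNReal.toReal_div]
      norm_num
    rw [← h5]
    exact ENNReal.toReal_mono (ENNReal.div_ne_top (by norm_num) (by norm_num)) h2
  have h6 : 0 < r.toReal := ENNReal.toReal_pos hr0.ne' hrt.ne
  have h7 : (3 * r).toReal = 3 * r.toReal := by
    rw [ENNReal.toReal_mul]
    norm_num
  rw [h7, ← add_div, ← add_div, lt_div_iff₀ (by positivity)]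
  norm_num
  linarith

end Vale.Agent.P141
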