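import Mathlib

/-!
# P141: the trilinear Hilbert transform, definitions used in the statements
-/

open MeasureTheory Filter Topology
open scoped SchwartzMap ENNReal

namespace Vale.Agent.P141

/-- the truncated integral `∫_{ε < |t| < R} f₁(x-t) f₂(x-2t) f₃(x-3t) dt/t` -/
noncomputable def Ttrunc (ε R : ℝ) (f₁ f₂ f₃ : ℝ → ℂ) (x : ℝ) : ℂ :=
  ∫ t in {t : ℝ | ε < |t| ∧ |t| < R}, f₁ (x - t) * f₂ (x - 2 * t) * f₃ (x - 3 * t) / (t : ℂ)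

/-- the trilinear Hilbert transform: the limit of `Ttrunc ε R` as `ε → 0+`, `R → ∞` -/
noncomputable def THT (f₁ f₂ f₃ : ℝ → ℂ) (x : ℝ) : ℂ :=
  limUnder (𝓝[>] (0 : ℝ) ×ˢ atTop) fun q : ℝ × ℝ => Ttrunc q.1 q.2 f₁ f₂ f₃ x

/-- Hölder tuples: `1 < p₁, p₂, p₃ ≤ ∞`, `0 < r < ∞`, `1/r = 1/p₁ + 1/p₂ + 1/p₃` -/
def IsHolder (p₁ p₂ p₃ r : ℝ≥0∞) : Prop :=
  1 < p₁ ∧ 1 < p₂ ∧ 1 < p₃ ∧ 0 < r ∧ r < ∞ ∧ r⁻¹ = p₁⁻¹ + p₂⁻¹ + p₃⁻¹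

/-- the trilinear Hilbert transform is bounded at the tuple -/
def BoundedAt (p₁ p₂ p₃ r : ℝ≥0∞) : Prop :=
  ∃ C : ℝ≥0∞, C < ∞ ∧ ∀ f₁ f₂ f₃ : 𝓢(ℝ, ℂ),
    eLpNorm (THT f₁ f₂ f₃) r volume ≤
      C * eLpNorm f₁ p₁ volume * eLpNorm f₂ p₂ volume * eLpNorm f₃ p₃ volume

end Vale.Agent.P141
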