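import Vale.Agent.P141.Bump

/-!
# P141, module TRANSFER

From a discrete configuration to Schwartz functions.  Replace `t` by `t + 3K` and `f₁, f₂, f₃` by
`f₁(· + 3K), f₂(· + 6K), f₃(· + 9K)` (`SS` unchanged): then `K ≤ t ≤ 4K` for all `t` with nonzero
product, `x ∈ X`.  Apply `bump_lower` and `bump_norm` (module BUMP) to
`F_i u = ∑ y, f_i y * φ (u - y)`; BoundedAt gives
`(1/8) ∑_x (SS x / (40 K))^r ≤ C^r`, hence the claim with another constant.
-/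

open MeasureTheory Filter Topology
open scoped SchwartzMap ENNReal

namespace Vale.Agent.P141

theorem tr_mass {p : ℝ} {K : ℤ} {f : ℤ → ℝ} (h : Adm p K f) (c : ℤ) :
    ∑ y ∈ Finset.Icc (-K - c) (K - c), f (y + c) ^ p ≤ 1 := by
  have h1 : ∑ y ∈ Finset.Icc (-K - c) (K - c), f (y + c) ^ p
      = ∑ y ∈ Finset.Icc (-K) K, f y ^ p := by
    refine Finset.sum_bij (fun y _ => y + c) ?_ ?_ ?_ ?_
    · intro y hy
      rw [Finset.mem_Icc] at hy ⊢
      omega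
    · intro a _ b _ hab
      omega
    · intro y hy
      rw [Finset.mem_Icc] at hy
      exact ⟨y - c, by rw [Finset.mem_Icc]; omega, by omega⟩
    · intro y _
      rfl
  rw [h1]
  exact h.mass

theorem tr_zero {p : ℝ} {K : ℤ} {f : ℤ → ℝ} (h : Adm p K f) (c : ℤ) (y : ℤ)
    (hy : y ∉ Finset.Icc (-K - c) (K - c)) : f (y + c) = 0 := by
  refine h.supp _ ?_
  rw [Finset.mem_Icc] at hy
  by_contra hc
  apply hy
  have := abs_le.1 (not_lt.1 hc)
  omega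

theorem tr_SS (T : Finset ℤ) (f₁ f₂ f₃ : ℤ → ℝ) (K x : ℤ) :
    SS (T.image fun t => t + 3 * K) (fun y => f₁ (y + 3 * K)) (fun y => f₂ (y + 6 * K))
      (fun y => f₃ (y + 9 * K)) x = SS T f₁ f₂ f₃ x := by
  unfold SS
  rw [Finset.sum_image (fun a _ b _ hab => by
    have : a + 3 * K = b + 3 * K := hab
    omega)]
  refine Finset.sum_congr rfl fun t _ => ?_
  have e1 : x - (t + 3 * K) + 3 * K = x - t := by ring
  have e2 : x - 2 * (t + 3 * K) + 6 * K = x - 2 * t := by ring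
  have e3 : x - 3 * (t + 3 * K) + 9 * K = x - 3 * t := by ring
  change f₁ (x - (t + 3 * K) + 3 * K) * f₂ (x - 2 * (t + 3 * K) + 6 * K)
    * f₃ (x - 3 * (t + 3 * K) + 9 * K) = _
  rw [e1, e2, e3]

/-- lower bound of the `L^r` integral by disjoint balls -/
theorem tr_lint {r : ℝ} (hr : 0 < r) (G : ℝ → ℂ) (X : Finset ℤ) (c : ℤ → ℝ)
    (hc : ∀ x ∈ X, 0 ≤ c x)
    (h : ∀ x₀ ∈ X, ∀ x : ℝ, |x - x₀| ≤ 1 / 16 → c x₀ ≤ ‖G x‖) :
    ENNReal.ofReal (∑ x ∈ X, c x ^ r * (1 / 8)) ≤ ∫⁻ x, ‖G x‖ₑ ^ r := by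
  have h1 : ENNReal.ofReal (∑ x ∈ X, c x ^ r * (1 / 8))
      = ∫⁻ x : ℝ, ∑ x₀ ∈ X, (Metric.closedBall (x₀ : ℝ) (1 / 16)).indicator
        (fun _ => ENNReal.ofReal (c x₀ ^ r)) x := by
    rw [lintegral_finsetSum]
    · rw [ENNReal.ofReal_sum_of_nonneg]
      · refine Finset.sum_congr rfl fun x₀ hx₀ => ?_
        rw [lintegral_indicator Metric.isClosed_closedBall.measurableSet, setLIntegral_const,
          Real.volume_closedBall, ← ENNReal.ofReal_mul (Real.rpow_nonneg (hc x₀ hx₀) r)]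
        congr 1
        ring
      · intro x₀ hx₀
        have := Real.rpow_nonneg (hc x₀ hx₀) r
        positivity
    · intro x₀ _
      exact measurable_const.indicator Metric.isClosed_closedBall.measurableSet
  rw [h1]
  refine lintegral_mono fun x => ?_
  by_cases hx : ∃ x₀ ∈ X, x ∈ Metric.closedBall (x₀ : ℝ) (1 / 16)
  · obtain ⟨x₀, hx₀, hxb⟩ := hx
    change ∑ x₀ ∈ X, (Metric.closedBall (x₀ : ℝ) (1 / 16)).indicator
        (fun _ => ENNReal.ofReal (c x₀ ^ r)) x ≤ _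
    rw [Finset.sum_eq_single x₀]
    · rw [Set.indicator_of_mem hxb]
      have h2 := h x₀ hx₀ x (by rwa [Metric.mem_closedBall, Real.dist_eq] at hxb)
      rw [← ofReal_norm, ENNReal.ofReal_rpow_of_nonneg (norm_nonneg _) hr.le]
      exact ENNReal.ofReal_le_ofReal (Real.rpow_le_rpow (hc x₀ hx₀) h2 hr.le)
    · intro x₁ _ hne
      rw [Set.indicator_of_notMem]
      intro hxb'
      rw [Metric.mem_closedBall, Real.dist_eq] at hxb hxb'
      have h3 : |((x₀ : ℝ) - x₁)| ≤ 1 / 8 := by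
        have : (x₀ : ℝ) - x₁ = (x - x₁) - (x - x₀) := by ring
        rw [this]
        refine (abs_sub _ _).trans ?_
        linarith
      have h4 : |((x₀ - x₁ : ℤ) : ℝ)| < 1 := by
        push_cast
        linarith
      have h5 : |x₀ - x₁| < 1 := by exact_mod_cast h4
      have h6 := Int.abs_lt_one_iff.1 h5
      apply hne
      omega
    · intro hn
      exact absurd hx₀ hn
  · change ∑ x₀ ∈ X, (Metric.closedBall (x₀ : ℝ) (1 / 16)).indicator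
        (fun _ => ENNReal.ofReal (c x₀ ^ r)) x ≤ _
    rw [Finset.sum_eq_zero]
    · exact zero_le
    · intro x₀ hx₀
      rw [Set.indicator_of_notMem]
      intro hxb
      exact hx ⟨x₀, hx₀, hxb⟩

theorem transfer {p₁ p₂ p₃ r : ℝ} (h1 : 1 < p₁) (h2 : 1 < p₂) (h3 : 1 < p₃) (hr : 0 < r)
    (hB : BoundedAt (ENNReal.ofReal p₁) (ENNReal.ofReal p₂) (ENNReal.ofReal p₃)
      (ENNReal.ofReal r)) :
    ∃ C : ℝ, 0 < C ∧ ∀ (N K : ℤ) (W : ℝ), 1 ≤ K → N ≤ K → Lvl p₁ p₂ p₃ r N K W →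
      W ≤ (C * K) ^ r := by
  obtain ⟨C, hCtop, hC⟩ := hB
  set c : ℝ := C.toReal with hc
  have hc0 : 0 ≤ c := ENNReal.toReal_nonneg
  have hCc : C = ENNReal.ofReal c := (ENNReal.ofReal_toReal hCtop.ne).symm
  refine ⟨(8 : ℝ) ^ (1 / r) * 40 * (c + 1), by positivity, fun N K W hK hNK hL => ?_⟩
  obtain ⟨T, f₁, f₂, f₃, a1, a2, a3, hT, hW⟩ := hL
  have hKr : (1 : ℝ) ≤ K := by exact_mod_cast hK
  obtain ⟨F₁, hF₁⟩ := bump_schwartz (Finset.Icc (-K - 3 * K) (K - 3 * K))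
    (fun y => f₁ (y + 3 * K))
  obtain ⟨F₂, hF₂⟩ := bump_schwartz (Finset.Icc (-K - 6 * K) (K - 6 * K))
    (fun y => f₂ (y + 6 * K))
  obtain ⟨F₃, hF₃⟩ := bump_schwartz (Finset.Icc (-K - 9 * K) (K - 9 * K))
    (fun y => f₃ (y + 9 * K))
  have e1 : (F₁ : ℝ → ℂ) = big (Finset.Icc (-K - 3 * K) (K - 3 * K)) (fun y => f₁ (y + 3 * K)) :=
    funext hF₁
  have e2 : (F₂ : ℝ → ℂ) = big (Finset.Icc (-K - 6 * K) (K - 6 * K)) (fun y => f₂ (y + 6 * K)) :=
    funext hF₂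
  have e3 : (F₃ : ℝ → ℂ) = big (Finset.Icc (-K - 9 * K) (K - 9 * K)) (fun y => f₃ (y + 9 * K)) :=
    funext hF₃
  have hb := hC F₁ F₂ F₃
  have n1 : eLpNorm F₁ (ENNReal.ofReal p₁) volume ≤ 1 := by
    rw [e1]
    exact bump_norm _ _ (fun y => a1.nonneg _) (by linarith) (tr_mass a1 _)
  have n2 : eLpNorm F₂ (ENNReal.ofReal p₂) volume ≤ 1 := by
    rw [e2]
    exact bump_norm _ _ (fun y => a2.nonneg _) (by linarith) (tr_mass a2 _)
  have n3 : eLpNorm F₃ (ENNReal.ofReal p₃) volume ≤ 1 := by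
    rw [e3]
    exact bump_norm _ _ (fun y => a3.nonneg _) (by linarith) (tr_mass a3 _)
  have hb2 : eLpNorm (THT F₁ F₂ F₃) (ENNReal.ofReal r) volume ≤ C := by
    refine hb.trans ?_
    calc C * eLpNorm F₁ (ENNReal.ofReal p₁) volume * eLpNorm F₂ (ENNReal.ofReal p₂) volume
          * eLpNorm F₃ (ENNReal.ofReal p₃) volume ≤ C * 1 * 1 * 1 := by gcongr
      _ = C := by rw [mul_one, mul_one, mul_one]
  have hint : ∫⁻ x, ‖THT F₁ F₂ F₃ x‖ₑ ^ r ≤ ENNReal.ofReal (c ^ r) := by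
    rw [eLpNorm_eq_lintegral_rpow_enorm_toReal (by
      rw [ne_eq, ENNReal.ofReal_eq_zero]
      linarith) ENNReal.ofReal_ne_top, ENNReal.toReal_ofReal hr.le] at hb2
    have h4 := ENNReal.rpow_le_rpow hb2 hr.le
    rw [← ENNReal.rpow_mul, one_div, inv_mul_cancel₀ hr.ne', ENNReal.rpow_one, hCc,
      ENNReal.ofReal_rpow_of_nonneg hc0 hr.le] at h4
    exact h4
  have hSS0 : ∀ x, 0 ≤ SS T f₁ f₂ f₃ x := by
    intro x
    unfold SS
    exact Finset.sum_nonneg fun t _ =>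
      mul_nonneg (mul_nonneg (a1.nonneg _) (a2.nonneg _)) (a3.nonneg _)
  have hlow : ∀ x₀ ∈ Finset.Ico 0 N, ∀ x : ℝ, |x - x₀| ≤ 1 / 16 →
      SS T f₁ f₂ f₃ x₀ / (40 * K) ≤ ‖THT F₁ F₂ F₃ x‖ := by
    intro x₀ hx₀ x hx
    rw [Finset.mem_Ico] at hx₀
    have h5 := bump_lower hK (Finset.Icc (-K - 3 * K) (K - 3 * K))
      (Finset.Icc (-K - 6 * K) (K - 6 * K)) (Finset.Icc (-K - 9 * K) (K - 9 * K))
      (T.image fun t => t + 3 * K) (fun y => f₁ (y + 3 * K)) (fun y => f₂ (y + 6 * K))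
      (fun y => f₃ (y + 9 * K)) (fun y => a1.nonneg _) (fun y => a2.nonneg _)
      (fun y => a3.nonneg _) (tr_zero a1 _) (tr_zero a2 _) (tr_zero a3 _)
      (fun y hy => by
        rw [Finset.mem_Icc] at hy
        omega)
      (fun t ht => by
        obtain ⟨t', ht', rfl⟩ := Finset.mem_image.1 ht
        have := abs_le.1 (hT t' ht')
        omega)
      (x₀ := x₀) (by
        rw [abs_le]
        omega) hx
    rw [tr_SS] at h5
    rw [e1, e2, e3]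
    exact h5
  have hmain := (tr_lint hr (THT F₁ F₂ F₃) (Finset.Ico 0 N)
    (fun x₀ => SS T f₁ f₂ f₃ x₀ / (40 * K))
    (fun x₀ _ => div_nonneg (hSS0 _) (by positivity)) hlow).trans hint
  rw [ENNReal.ofReal_le_ofReal_iff (Real.rpow_nonneg hc0 r)] at hmain
  have hK40 : (0 : ℝ) < 40 * K := by positivity
  have h6 : ∑ x ∈ Finset.Ico 0 N, (SS T f₁ f₂ f₃ x / (40 * K)) ^ r * (1 / 8)
      = (∑ x ∈ Finset.Ico 0 N, SS T f₁ f₂ f₃ x ^ r) * ((1 / 8) / (40 * K) ^ r) := by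
    rw [Finset.sum_mul]
    refine Finset.sum_congr rfl fun x _ => ?_
    rw [Real.div_rpow (hSS0 x) hK40.le]
    ring
  rw [h6] at hmain
  have hpow : (0 : ℝ) < (40 * K : ℝ) ^ r := Real.rpow_pos_of_pos hK40 r
  have h7 : ∑ x ∈ Finset.Ico 0 N, SS T f₁ f₂ f₃ x ^ r ≤ 8 * (40 * K : ℝ) ^ r * c ^ r := by
    have h8 : (∑ x ∈ Finset.Ico 0 N, SS T f₁ f₂ f₃ x ^ r)
        = ((∑ x ∈ Finset.Ico 0 N, SS T f₁ f₂ f₃ x ^ r) * ((1 / 8) / (40 * K) ^ r))
          * (8 * (40 * K : ℝ) ^ r) := by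
      field_simp
    rw [h8]
    calc _ ≤ c ^ r * (8 * (40 * K : ℝ) ^ r) :=
          mul_le_mul_of_nonneg_right hmain (by positivity)
      _ = _ := by ring
  refine hW.trans (h7.trans ?_)
  have h9 : ((8 : ℝ) ^ (1 / r) * 40 * (c + 1) * K) ^ r
      = 8 * (40 * K : ℝ) ^ r * (c + 1) ^ r := by
    have h10 : (8 : ℝ) ^ (1 / r) * 40 * (c + 1) * K = (8 : ℝ) ^ (1 / r) * (40 * K) * (c + 1) := by
      ring
    rw [h10, Real.mul_rpow (by positivity) (by linarith), Real.mul_rpow (by positivity) hK40.le,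
      ← Real.rpow_mul (by norm_num), one_div, inv_mul_cancel₀ hr.ne', Real.rpow_one]
  rw [h9]
  have h11 : c ^ r ≤ (c + 1) ^ r := Real.rpow_le_rpow hc0 (by linarith) hr.le
  exact mul_le_mul_of_nonneg_left h11 (by positivity)

end Vale.Agent.P141
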